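import Vale.Agent.P252.Defs

/-!
# P252: partial derivatives of separable functions
-/

namespace Vale.Agent.P252

open Matrix Filter Topology

variable {n : ℕ}

theorem pd_congr {i : Fin n} {u v : (Fin n → ℝ) → ℝ} {x : Fin n → ℝ} (h : u =ᶠ[𝓝 x] v) :
    pd i u x = pd i v x :=
  Filter.EventuallyEq.lineDeriv_eq h

theorem pd_congr_of_isOpen {i : Fin n} {u v : (Fin n → ℝ) → ℝ} {Ω : Set (Fin n → ℝ)}
    (hΩ : IsOpen Ω) (h : ∀ y ∈ Ω, u y = v y) {x : Fin n → ℝ} (hx : x ∈ Ω) :
    pd i u x = pd i v x :=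
  pd_congr (Filter.eventuallyEq_of_mem (hΩ.mem_nhds hx) h)

theorem add_smul_single_apply (x : Fin n → ℝ) (i j : Fin n) (t : ℝ) :
    (x + t • (Pi.single i (1 : ℝ) : Fin n → ℝ)) j = if j = i then x i + t else x j := by
  by_cases h : j = i
  · subst h; simp
  · simp [h]

/-- Partial derivative of a sum of one-variable functions. -/
theorem pd_sum_sep (f : Fin n → ℝ → ℝ) (i : Fin n) (x : Fin n → ℝ) :
    pd i (fun y => ∑ j, f j (y j)) x = deriv (f i) (x i) := by
  unfold pd lineDeriv
  have h : (fun t : ℝ => ∑ j, f j ((x + t • (Pi.single i (1 : ℝ) : Fin n → ℝ)) j))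
      = fun t : ℝ => f i (x i + t) + ∑ j ∈ Finset.univ.erase i, f j (x j) := by
    funext t
    rw [← Finset.add_sum_erase _ _ (Finset.mem_univ i)]
    congr 1
    · rw [add_smul_single_apply]; simp
    · refine Finset.sum_congr rfl fun j hj => ?_
      rw [add_smul_single_apply, if_neg (Finset.ne_of_mem_erase hj)]
  rw [h, deriv_add_const, deriv_comp_const_add, add_zero]

/-- Partial derivative of a product of one-variable functions. -/
theorem pd_prod_sep (f : Fin n → ℝ → ℝ) (i : Fin n) (x : Fin n → ℝ) :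
    pd i (fun y => ∏ j, f j (y j)) x
      = deriv (f i) (x i) * ∏ j ∈ Finset.univ.erase i, f j (x j) := by
  unfold pd lineDeriv
  have h : (fun t : ℝ => ∏ j, f j ((x + t • (Pi.single i (1 : ℝ) : Fin n → ℝ)) j))
      = fun t : ℝ => f i (x i + t) * ∏ j ∈ Finset.univ.erase i, f j (x j) := by
    funext t
    rw [← Finset.mul_prod_erase _ _ (Finset.mem_univ i)]
    congr 1
    · rw [add_smul_single_apply]; simp
    · refine Finset.prod_congr rfl fun j hj => ?_
      rw [add_smul_single_apply, if_neg (Finset.ne_of_mem_erase hj)]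
  rw [h, deriv_mul_const_field, deriv_comp_const_add, add_zero]

/-- Partial derivative of a function of a single coordinate. -/
theorem pd_coord (g : ℝ → ℝ) (i j : Fin n) (x : Fin n → ℝ) :
    pd i (fun y => g (y j)) x = if i = j then deriv g (x j) else 0 := by
  unfold pd lineDeriv
  by_cases h : i = j
  · subst h
    have h1 : (fun t : ℝ => g ((x + t • (Pi.single i (1 : ℝ) : Fin n → ℝ)) i))
        = fun t : ℝ => g (x i + t) := by
      funext t; rw [add_smul_single_apply]; simp
    rw [h1, deriv_comp_const_add, add_zero, if_pos rfl]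
  · have h1 : (fun t : ℝ => g ((x + t • (Pi.single i (1 : ℝ) : Fin n → ℝ)) j))
        = fun _ : ℝ => g (x j) := by
      funext t; rw [add_smul_single_apply, if_neg (Ne.symm h)]
    rw [h1, deriv_const, if_neg h]

/-- The Hessian of a separable function is diagonal. -/
theorem hess_sep {Ω : Set (Fin n → ℝ)} (hΩ : IsOpen Ω) {u : (Fin n → ℝ) → ℝ}
    {f : Fin n → ℝ → ℝ} (hu : ∀ y ∈ Ω, u y = ∑ j, f j (y j)) {x : Fin n → ℝ} (hx : x ∈ Ω) :
    hess u x = Matrix.diagonal fun i => deriv (deriv (f i)) (x i) := by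
  ext i j
  have h1 : ∀ y ∈ Ω, pd j u y = deriv (f j) (y j) := fun y hy => by
    rw [pd_congr_of_isOpen hΩ hu hy, pd_sum_sep]
  simp only [hess, Matrix.of_apply]
  rw [pd_congr_of_isOpen hΩ h1 hx, pd_coord, Matrix.diagonal_apply]
  by_cases h : i = j
  · subst h; simp
  · simp [h]

end Vale.Agent.P252
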