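import Mathlib

/-!
# P252: the affine maximal equation, basic definitions

Everything is stated for functions `u : (Fin n → ℝ) → ℝ`.
-/

namespace Vale.Agent.P252

open Matrix

/-- The partial derivative `∂_i u (x)`, i.e. the derivative of `t ↦ u (x + t e_i)` at `t = 0`. -/
noncomputable def pd {n : ℕ} (i : Fin n) (u : (Fin n → ℝ) → ℝ) (x : Fin n → ℝ) : ℝ :=
  lineDeriv ℝ u x (Pi.single i 1)

/-- The Hessian matrix `D²u (x) = (∂_i ∂_j u (x))`. -/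
noncomputable def hess {n : ℕ} (u : (Fin n → ℝ) → ℝ) (x : Fin n → ℝ) :
    Matrix (Fin n) (Fin n) ℝ :=
  Matrix.of fun i j => pd i (pd j u) x

/-- The cofactor matrix `U = det (D²u) (D²u)⁻¹`. -/
noncomputable def cof {n : ℕ} (u : (Fin n → ℝ) → ℝ) (x : Fin n → ℝ) :
    Matrix (Fin n) (Fin n) ℝ :=
  (hess u x).det • (hess u x)⁻¹

/-- The function `w = (det D²u)^(-(n+1)/(n+2))`. -/
noncomputable def wfun {n : ℕ} (u : (Fin n → ℝ) → ℝ) (x : Fin n → ℝ) : ℝ :=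
  (hess u x).det ^ (-(((n : ℝ) + 1) / ((n : ℝ) + 2)))

/-- The affine maximal equation (AM) at the point `x`: `∑ U^{ij} ∂_{ij} w = 0`. -/
def AffineMaximalAt {n : ℕ} (u : (Fin n → ℝ) → ℝ) (x : Fin n → ℝ) : Prop :=
  ∑ i, ∑ j, cof u x i j * pd i (pd j (wfun u)) x = 0

/-- The graph of `u` over `Ω`, as a subset of `ℝ^n × ℝ`. -/
def graphOn {n : ℕ} (Ω : Set (Fin n → ℝ)) (u : (Fin n → ℝ) → ℝ) : Set ((Fin n → ℝ) × ℝ) :=
  {p | p.1 ∈ Ω ∧ p.2 = u p.1}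

end Vale.Agent.P252
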