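import Mathlib

/-!
# P252: determinant and inverse of a diagonal matrix plus a rank one matrix
-/

namespace Vale.Agent.P252

open Matrix

variable {n : ℕ}

/-- The matrix `diag d + c v vᵀ`. -/
def diagRank (d v : Fin n → ℝ) (c : ℝ) : Matrix (Fin n) (Fin n) ℝ :=
  Matrix.of fun i j => (if i = j then d i else 0) + c * v i * v j

theorem diagRank_apply (d v : Fin n → ℝ) (c : ℝ) (i j : Fin n) :
    diagRank d v c i j = (if i = j then d i else 0) + c * v i * v j := rfl

theorem det_diagRank (d v : Fin n → ℝ) (c : ℝ) (hd : ∀ i, d i ≠ 0) :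
    (diagRank d v c).det = (∏ i, d i) * (1 + c * ∑ i, v i ^ 2 / d i) := by
  have h : diagRank d v c = Matrix.diagonal d *
      (1 + Matrix.replicateCol Unit (fun i => c * v i / d i) * Matrix.replicateRow Unit v) := by
    ext i j
    rw [Matrix.diagonal_mul, diagRank_apply, Matrix.add_apply, Matrix.mul_apply]
    simp only [Matrix.replicateCol_apply, Matrix.replicateRow_apply, Finset.univ_unique,
      Finset.sum_const, Finset.card_singleton, one_smul, Matrix.one_apply]
    have := hd i
    by_cases hij : i = j
    · simp only [hij, if_true]; subst hij; field_simp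
    · simp only [hij, if_false]; field_simp; ring
  rw [h, Matrix.det_mul, Matrix.det_diagonal, Matrix.det_one_add_replicateCol_mul_replicateRow]
  congr 2
  rw [dotProduct, Finset.mul_sum]
  refine Finset.sum_congr rfl fun i _ => ?_
  ring

theorem inv_diagRank (d v : Fin n → ℝ) (c : ℝ) (hd : ∀ i, d i ≠ 0)
    (hσ : 1 + c * ∑ i, v i ^ 2 / d i ≠ 0) :
    (diagRank d v c)⁻¹ = Matrix.of fun i j => (if i = j then (d i)⁻¹ else 0)
      - c / (1 + c * ∑ i, v i ^ 2 / d i) * (v i / d i) * (v j / d j) := by
  apply Matrix.inv_eq_right_inv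
  set σ : ℝ := ∑ i, v i ^ 2 / d i with hσdef
  set e : ℝ := c / (1 + c * σ) with he
  ext i j
  rw [Matrix.mul_apply]
  simp only [diagRank_apply, Matrix.of_apply]
  have h1 : ∀ l, ((if i = l then d i else 0) + c * v i * v l) *
      ((if l = j then (d l)⁻¹ else 0) - e * (v l / d l) * (v j / d j))
      = (if i = l then (if l = j then d i * (d l)⁻¹ else 0) else 0)
        - (if i = l then d i * (e * (v l / d l) * (v j / d j)) else 0)
        + (if l = j then c * v i * v l * (d l)⁻¹ else 0)
        - c * v i * e * (v j / d j) * (v l ^ 2 / d l) := by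
    intro l
    by_cases h1 : i = l
    · subst h1
      by_cases h2 : i = j
      · subst h2; simp only [if_true]; ring
      · simp only [h2, if_true, if_false]; ring
    · by_cases h2 : l = j
      · subst h2; simp only [h1, if_true, if_false]; ring
      · simp only [h1, h2, if_false]; ring
  simp only [h1]
  rw [Finset.sum_sub_distrib, Finset.sum_add_distrib, Finset.sum_sub_distrib, ← Finset.mul_sum,
    ← hσdef]
  simp only [Finset.sum_ite_eq, Finset.sum_ite_eq', Finset.mem_univ, if_true]
  have hdi := hd i
  have hdj := hd j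
  have hee : e * (1 + c * σ) = c := by rw [he]; field_simp
  rw [Matrix.one_apply]
  by_cases hij : i = j
  · subst hij
    simp only [if_true]
    rw [mul_inv_cancel₀ hdi]
    have : d i * (e * (v i / d i) * (v i / d i)) = e * v i * (v i / d i) := by field_simp
    rw [this]
    have h3 : c * v i * v i * (d i)⁻¹ = (e * (1 + c * σ)) * v i * (v i / d i) := by
      rw [hee]; ring
    rw [h3]; ring
  · simp only [hij, if_false]
    have : d i * (e * (v i / d i) * (v j / d j)) = e * v i * (v j / d j) := by field_simp
    rw [this]
    have h3 : c * v i * v j * (d j)⁻¹ = (e * (1 + c * σ)) * v i * (v j / d j) := by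
      rw [hee]; ring
    rw [h3]; ring

end Vale.Agent.P252
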