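import Mathlib

/-!
# P252: one-variable lemmas
-/

namespace Vale.Agent.P252

open Set Filter Topology

/-- A positive concave function on `(0, s₁)` is bounded below by a linear function
vanishing at `0`. -/
theorem concave_pos_lower {s₁ : ℝ} {φ : ℝ → ℝ} (hc : ConcaveOn ℝ (Ioo 0 s₁) φ)
    (hpos : ∀ s ∈ Ioo 0 s₁, 0 < φ s) {s₀ : ℝ} (hs₀ : s₀ ∈ Ioo 0 s₁) {s : ℝ}
    (hs : s ∈ Ioc 0 s₀) : φ s₀ * s / s₀ ≤ φ s := by
  have hs₀pos : 0 < s₀ := hs₀.1
  have key : ∀ ε ∈ Ioo 0 s, φ s₀ * (s - ε) / s₀ ≤ φ s := by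
    intro ε hε
    have hεmem : ε ∈ Ioo 0 s₁ := ⟨hε.1, lt_trans hε.2 (lt_of_le_of_lt hs.2 hs₀.2)⟩
    have hd : 0 < s₀ - ε := by linarith [hε.2, hs.2]
    have ha0 : 0 ≤ (s₀ - s) / (s₀ - ε) := div_nonneg (by linarith [hs.2]) hd.le
    have hb0 : 0 ≤ (s - ε) / (s₀ - ε) := div_nonneg (by linarith [hε.2]) hd.le
    have hab : (s₀ - s) / (s₀ - ε) + (s - ε) / (s₀ - ε) = 1 := by
      field_simp; ring
    have h := hc.2 hεmem hs₀ ha0 hb0 hab
    have hcomb : ((s₀ - s) / (s₀ - ε)) • ε + ((s - ε) / (s₀ - ε)) • s₀ = s := by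
      simp only [smul_eq_mul]; field_simp; ring
    rw [hcomb] at h
    simp only [smul_eq_mul] at h
    have h1 : 0 ≤ (s₀ - s) / (s₀ - ε) * φ ε :=
      mul_nonneg (div_nonneg (by linarith [hs.2]) hd.le) (hpos ε hεmem).le
    have h2 : φ s₀ * (s - ε) / s₀ ≤ (s - ε) / (s₀ - ε) * φ s₀ := by
      have h3 : (s - ε) / s₀ ≤ (s - ε) / (s₀ - ε) :=
        div_le_div_of_nonneg_left (by linarith [hε.2]) hd (by linarith [hε.1])
      calc φ s₀ * (s - ε) / s₀ = (s - ε) / s₀ * φ s₀ := by ring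
        _ ≤ (s - ε) / (s₀ - ε) * φ s₀ := mul_le_mul_of_nonneg_right h3 (hpos s₀ hs₀).le
    linarith
  have ht : Tendsto (fun ε : ℝ => φ s₀ * (s - ε) / s₀) (𝓝[>] 0) (𝓝 (φ s₀ * (s - 0) / s₀)) := by
    apply Tendsto.mono_left _ nhdsWithin_le_nhds
    apply Continuous.tendsto
    fun_prop
  rw [sub_zero] at ht
  refine le_of_tendsto ht ?_
  filter_upwards [Ioo_mem_nhdsGT hs.1] with ε hε using key ε hε

/-- If `F'' ≤ K s^(-e)` on `(0, s₁)` with `1 < e < 2`, then `F` is bounded above near `0`. -/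
theorem bdd_above_of_deriv2_le {s₁ e K : ℝ} (he1 : 1 < e) (he2 : e < 2) (hK : 0 ≤ K)
    {F : ℝ → ℝ} (hF : DifferentiableOn ℝ F (Ioo 0 s₁))
    (hF' : DifferentiableOn ℝ (deriv F) (Ioo 0 s₁))
    (hF'' : ∀ s ∈ Ioo 0 s₁, deriv (deriv F) s ≤ K * s ^ (-e)) {s₀ : ℝ} (hs₀ : s₀ ∈ Ioo 0 s₁) :
    ∃ M, ∀ s ∈ Ioc 0 s₀, F s ≤ M := by
  set θ : ℝ := 2 - e with hθ
  have hθ0 : 0 < θ := by linarith
  have hθ1 : θ < 1 := by linarith
  set C : ℝ := K / (θ * (1 - θ)) with hC
  have hC0 : 0 ≤ C := div_nonneg hK (mul_nonneg hθ0.le (by linarith))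
  set h : ℝ → ℝ := fun s => F s + C * s ^ θ with hh
  set H1 : ℝ → ℝ := fun s => deriv F s + C * (θ * s ^ (θ - 1)) with hH1
  have hopen : IsOpen (Ioo (0 : ℝ) s₁) := isOpen_Ioo
  have hd1 : ∀ s ∈ Ioo 0 s₁, HasDerivAt h (H1 s) s := by
    intro s hs
    have h1 : HasDerivAt F (deriv F s) s :=
      ((hF s hs).differentiableAt (hopen.mem_nhds hs)).hasDerivAt
    have h2 : HasDerivAt (fun s : ℝ => s ^ θ) (θ * s ^ (θ - 1)) s :=
      Real.hasDerivAt_rpow_const (Or.inl hs.1.ne')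
    exact h1.add (h2.const_mul C)
  have hd2 : ∀ s ∈ Ioo 0 s₁,
      HasDerivAt H1 (deriv (deriv F) s + C * (θ * ((θ - 1) * s ^ (θ - 1 - 1)))) s := by
    intro s hs
    have h1 : HasDerivAt (deriv F) (deriv (deriv F) s) s :=
      ((hF' s hs).differentiableAt (hopen.mem_nhds hs)).hasDerivAt
    have h2 : HasDerivAt (fun s : ℝ => s ^ (θ - 1)) ((θ - 1) * s ^ (θ - 1 - 1)) s :=
      Real.hasDerivAt_rpow_const (Or.inl hs.1.ne')
    exact h1.add ((h2.const_mul θ).const_mul C)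
  have hd2le : ∀ s ∈ Ioo 0 s₁, deriv H1 s ≤ 0 := by
    intro s hs
    rw [(hd2 s hs).deriv]
    have h1 : θ - 1 - 1 = -e := by rw [hθ]; ring
    rw [h1]
    have h2 : C * (θ * ((θ - 1) * s ^ (-e))) = -(K * s ^ (-e)) := by
      rw [hC]
      have h5 : θ ≠ 0 := hθ0.ne'
      have h6 : 1 - θ ≠ 0 := by linarith
      field_simp
      ring
    rw [h2]
    linarith [hF'' s hs]
  have hanti : AntitoneOn H1 (Ioo 0 s₁) := by
    apply antitoneOn_of_deriv_nonpos (convex_Ioo 0 s₁)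
    · exact fun s hs => (hd2 s hs).continuousAt.continuousWithinAt
    · rw [interior_Ioo]
      exact fun s hs => (hd2 s hs).differentiableAt.differentiableWithinAt
    · rw [interior_Ioo]; exact hd2le
  refine ⟨h s₀ + |H1 s₀| * s₀, fun s hs => ?_⟩
  have hsub : Icc s s₀ ⊆ Ioo 0 s₁ := fun x hx => ⟨lt_of_lt_of_le hs.1 hx.1, lt_of_le_of_lt hx.2 hs₀.2⟩
  have hmv := Convex.mul_sub_le_image_sub_of_le_deriv (convex_Icc s s₀) (f := h) (C := H1 s₀)
    (fun x hx => (hd1 x (hsub hx)).continuousAt.continuousWithinAt)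
    (fun x hx => (hd1 x (hsub (interior_subset hx))).differentiableAt.differentiableWithinAt)
    (fun x hx => by
      have hx' := hsub (interior_subset hx)
      rw [(hd1 x hx').deriv]
      exact hanti hx' hs₀ (interior_subset hx).2)
    s (left_mem_Icc.2 hs.2) s₀ (right_mem_Icc.2 hs.2) hs.2
  have h3 : 0 ≤ C * s ^ θ := mul_nonneg hC0 (Real.rpow_nonneg hs.1.le _)
  have h4 : F s = h s - C * s ^ θ := by simp [hh]
  have h5 : -(|H1 s₀| * s₀) ≤ H1 s₀ * (s₀ - s) := by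
    have h6 : |H1 s₀ * (s₀ - s)| ≤ |H1 s₀| * s₀ := by
      rw [abs_mul]
      apply mul_le_mul_of_nonneg_left _ (abs_nonneg _)
      rw [abs_of_nonneg (by linarith [hs.2])]
      linarith [hs.1]
    linarith [neg_abs_le (H1 s₀ * (s₀ - s))]
  linarith

/-- A positive function on the line with nonpositive second derivative has zero derivative. -/
theorem deriv_eq_zero_of_concave_pos {φ : ℝ → ℝ} (h1 : Differentiable ℝ φ)
    (h2 : Differentiable ℝ (deriv φ)) (h3 : ∀ t, deriv (deriv φ) t ≤ 0) (hpos : ∀ t, 0 < φ t) :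
    ∀ t, deriv φ t = 0 := by
  have hanti : Antitone (deriv φ) := antitone_of_deriv_nonpos h2 h3
  intro t₁
  by_contra hm
  rcases lt_or_gt_of_ne hm with hneg | hposm
  · -- negative slope: go to the right
    set m := deriv φ t₁ with hmdef
    have hmv := Convex.image_sub_le_mul_sub_of_deriv_le (convex_Ici t₁) (f := φ) (C := m)
      h1.continuous.continuousOn h1.differentiableOn
      (fun x hx => by
        rw [interior_Ici] at hx
        exact hanti (le_of_lt hx))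
      t₁ self_mem_Ici (t₁ + φ t₁ / (-m)) (by
        have : 0 ≤ φ t₁ / (-m) := div_nonneg (hpos t₁).le (by linarith)
        simp only [mem_Ici]; linarith) (by
        have : 0 ≤ φ t₁ / (-m) := div_nonneg (hpos t₁).le (by linarith)
        linarith)
    have h4 : m * (t₁ + φ t₁ / (-m) - t₁) = -φ t₁ := by
      have : m ≠ 0 := hneg.ne
      field_simp
      ring
    rw [h4] at hmv
    linarith [hpos (t₁ + φ t₁ / (-m))]
  · set m := deriv φ t₁ with hmdef
    have hmv := Convex.mul_sub_le_image_sub_of_le_deriv (convex_Iic t₁) (f := φ) (C := m)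
      h1.continuous.continuousOn h1.differentiableOn
      (fun x hx => by
        rw [interior_Iic] at hx
        exact hanti (le_of_lt hx))
      (t₁ - φ t₁ / m) (by
        have : 0 ≤ φ t₁ / m := div_nonneg (hpos t₁).le hposm.le
        simp only [mem_Iic]; linarith) t₁ self_mem_Iic (by
        have : 0 ≤ φ t₁ / m := div_nonneg (hpos t₁).le hposm.le
        linarith)
    have h4 : m * (t₁ - (t₁ - φ t₁ / m)) = φ t₁ := by
      have : m ≠ 0 := hposm.ne'
      field_simp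
      ring
    rw [h4] at hmv
    linarith [hpos (t₁ - φ t₁ / m)]

end Vale.Agent.P252
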