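import Vale.Agent.P252.Ode

/-!
# P252: behaviour at a finite endpoint
-/

namespace Vale.Agent.P252

open Set Filter Topology
open scoped ContDiff

theorem deriv_comp_affine (f : ℝ → ℝ) (β σ : ℝ) :
    deriv (fun s => f (β + σ * s)) = fun s => σ * deriv f (β + σ * s) := by
  funext s
  have h := deriv_comp_mul_left σ (fun y => f (β + y)) s
  rw [deriv_comp_const_add] at h
  simpa using h

theorem deriv2_comp_affine (f : ℝ → ℝ) (β σ : ℝ) (s : ℝ) :
    deriv (deriv (fun s => f (β + σ * s))) s = σ * σ * deriv (deriv f) (β + σ * s) := by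
  rw [deriv_comp_affine, deriv_const_mul_field, deriv_comp_affine]
  ring

theorem contDiffOn_comp_affine {f : ℝ → ℝ} {I J : Set ℝ} (hf : ContDiffOn ℝ ∞ f I) (β σ : ℝ)
    (hJ : ∀ s ∈ J, β + σ * s ∈ I) : ContDiffOn ℝ ∞ (fun s => f (β + σ * s)) J := by
  have h : ContDiffOn ℝ ∞ (fun s : ℝ => β + σ * s) J := by
    apply ContDiff.contDiffOn
    fun_prop
  exact hf.comp h hJ

theorem contDiffOn_deriv {f : ℝ → ℝ} {I : Set ℝ} (hI : IsOpen I) (hf : ContDiffOn ℝ ∞ f I) :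
    ContDiffOn ℝ ∞ (deriv f) I :=
  hf.deriv_of_isOpen hI (by simp)

theorem differentiableOn_of_smooth {f : ℝ → ℝ} {I : Set ℝ} (hf : ContDiffOn ℝ ∞ f I) :
    DifferentiableOn ℝ f I :=
  hf.differentiableOn (by simp)

/-- Behaviour at a finite endpoint `β` of the interval of definition, approached along
`β + σ s`, `s ↓ 0`, `σ = ± 1`: if `φ = (f'')^(-a)` has nonpositive second derivative, with
`1/2 < a < 1`, then `f` stays bounded. -/
theorem endpoint_bdd {a : ℝ} (ha1 : 1 / 2 < a) (ha2 : a < 1) {f : ℝ → ℝ} {I : Set ℝ}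
    (hI : IsOpen I) (hf : ContDiffOn ℝ ∞ f I) (hg : ∀ t ∈ I, 0 < deriv (deriv f) t)
    (hφ : ∀ t ∈ I, deriv (deriv (fun t => (deriv (deriv f) t) ^ (-a))) t ≤ 0)
    {β σ s₁ : ℝ} (hσ : σ * σ = 1) (hs₁ : 0 < s₁) (hsub : ∀ s ∈ Ioo 0 s₁, β + σ * s ∈ I) :
    ∃ s₂ ∈ Ioo 0 s₁, ∃ m M : ℝ, ∀ s ∈ Ioc 0 s₂, m ≤ f (β + σ * s) ∧ f (β + σ * s) ≤ M := by
  have ha0 : 0 < a := by linarith
  set g : ℝ → ℝ := deriv (deriv f) with hgdef
  set φ : ℝ → ℝ := fun t => (g t) ^ (-a) with hφdef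
  have hgs : ContDiffOn ℝ ∞ g I := contDiffOn_deriv hI (contDiffOn_deriv hI hf)
  have hφs : ContDiffOn ℝ ∞ φ I := hgs.rpow_const_of_ne fun t ht => (hg t ht).ne'
  set F : ℝ → ℝ := fun s => f (β + σ * s) with hF
  set Φ : ℝ → ℝ := fun s => φ (β + σ * s) with hΦ
  have hJ : IsOpen (Ioo (0 : ℝ) s₁) := isOpen_Ioo
  have hFs : ContDiffOn ℝ ∞ F (Ioo 0 s₁) := contDiffOn_comp_affine hf β σ hsub
  have hΦs : ContDiffOn ℝ ∞ Φ (Ioo 0 s₁) := contDiffOn_comp_affine hφs β σ hsub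
  have hF2 : ∀ s, deriv (deriv F) s = g (β + σ * s) := fun s => by
    rw [hF, deriv2_comp_affine, hσ, one_mul]
  have hΦ2 : ∀ s, deriv (deriv Φ) s = deriv (deriv φ) (β + σ * s) := fun s => by
    rw [hΦ, deriv2_comp_affine, hσ, one_mul]
  have hΦpos : ∀ s ∈ Ioo 0 s₁, 0 < Φ s := fun s hs => Real.rpow_pos_of_pos (hg _ (hsub s hs)) _
  have hconc : ConcaveOn ℝ (Ioo 0 s₁) Φ := by
    apply concaveOn_of_deriv2_nonpos (convex_Ioo 0 s₁) hΦs.continuousOn
    · rw [interior_Ioo]; exact differentiableOn_of_smooth hΦs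
    · rw [interior_Ioo]; exact differentiableOn_of_smooth (contDiffOn_deriv hJ hΦs)
    · rw [interior_Ioo]
      intro s hs
      show deriv (deriv Φ) s ≤ 0
      rw [hΦ2]
      exact hφ _ (hsub s hs)
  -- the intermediate points
  set s₀ : ℝ := s₁ / 2 with hs₀def
  have hs₀ : s₀ ∈ Ioo 0 s₁ := ⟨by positivity, by rw [hs₀def]; linarith⟩
  set κ : ℝ := Φ s₀ / s₀ with hκ
  have hκpos : 0 < κ := div_pos (hΦpos s₀ hs₀) hs₀.1
  set e : ℝ := 1 / a with he
  have he1 : 1 < e := by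
    rw [he, lt_div_iff₀ ha0]; linarith
  have he2 : e < 2 := by
    rw [he, div_lt_iff₀ ha0]; linarith
  have hsub0 : Ioo 0 s₀ ⊆ Ioo 0 s₁ := fun s hs => ⟨hs.1, lt_trans hs.2 hs₀.2⟩
  have hbound : ∀ s ∈ Ioo 0 s₀, deriv (deriv F) s ≤ κ ^ (-e) * s ^ (-e) := by
    intro s hs
    have h1 : κ * s ≤ Φ s := by
      have := concave_pos_lower hconc hΦpos hs₀ (s := s) ⟨hs.1, hs.2.le⟩
      calc κ * s = Φ s₀ * s / s₀ := by rw [hκ]; ring
        _ ≤ Φ s := this
    have h2 : g (β + σ * s) = (Φ s) ^ (-e) := by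
      have hgp := hg _ (hsub s (hsub0 hs))
      simp only [hΦ, hφdef]
      rw [← Real.rpow_mul hgp.le]
      have : -a * -e = 1 := by
        rw [he]; field_simp
      rw [this, Real.rpow_one]
    rw [hF2, h2, ← Real.mul_rpow hκpos.le hs.1.le]
    exact Real.rpow_le_rpow_of_nonpos (mul_pos hκpos hs.1) h1 (by linarith)
  set s₂ : ℝ := s₀ / 2 with hs₂def
  have hs₂ : s₂ ∈ Ioo 0 s₀ := ⟨by have := hs₀.1; positivity, by rw [hs₂def]; linarith [hs₀.1]⟩
  obtain ⟨M, hM⟩ := bdd_above_of_deriv2_le he1 he2 (Real.rpow_nonneg hκpos.le _)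
    ((differentiableOn_of_smooth hFs).mono hsub0)
    ((differentiableOn_of_smooth (contDiffOn_deriv hJ hFs)).mono hsub0) hbound hs₂
  -- the lower bound, by convexity
  have hmono : MonotoneOn (deriv F) (Ioo 0 s₁) := by
    apply monotoneOn_of_deriv_nonneg (convex_Ioo 0 s₁) (contDiffOn_deriv hJ hFs).continuousOn
    · rw [interior_Ioo]; exact differentiableOn_of_smooth (contDiffOn_deriv hJ hFs)
    · rw [interior_Ioo]
      intro s hs
      rw [hF2]; exact (hg _ (hsub s hs)).le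
  have hs₂' : s₂ ∈ Ioo 0 s₁ := hsub0 hs₂
  refine ⟨s₂, hs₂', F s₂ - |deriv F s₂| * s₂, M, fun s hs => ⟨?_, hM s hs⟩⟩
  have hsubI : Icc s s₂ ⊆ Ioo 0 s₁ :=
    fun x hx => ⟨lt_of_lt_of_le hs.1 hx.1, lt_of_le_of_lt hx.2 hs₂'.2⟩
  have hmv := Convex.image_sub_le_mul_sub_of_deriv_le (convex_Icc s s₂) (f := F)
    (C := deriv F s₂) (hFs.continuousOn.mono hsubI)
    ((differentiableOn_of_smooth hFs).mono (fun x hx => hsubI (interior_subset hx)))
    (fun x hx => hmono (hsubI (interior_subset hx)) hs₂' (interior_subset hx).2)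
    s (left_mem_Icc.2 hs.2) s₂ (right_mem_Icc.2 hs.2) hs.2
  have h5 : deriv F s₂ * (s₂ - s) ≤ |deriv F s₂| * s₂ := by
    calc deriv F s₂ * (s₂ - s) ≤ |deriv F s₂ * (s₂ - s)| := le_abs_self _
      _ = |deriv F s₂| * (s₂ - s) := by
          rw [abs_mul, abs_of_nonneg (sub_nonneg.2 hs.2)]
      _ ≤ |deriv F s₂| * s₂ := mul_le_mul_of_nonneg_left (by linarith [hs.1]) (abs_nonneg _)
  show F s₂ - |deriv F s₂| * s₂ ≤ F s
  linarith

/-- A function on the line with constant second derivative is a quadratic polynomial. -/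
theorem quadratic_of_deriv2_const {f : ℝ → ℝ} (h1 : Differentiable ℝ f)
    (h2 : Differentiable ℝ (deriv f)) {lam : ℝ} (h3 : ∀ t, deriv (deriv f) t = lam) (t : ℝ) :
    f t = lam * t ^ 2 / 2 + deriv f 0 * t + f 0 := by
  have hk : ∀ t, deriv f t = lam * t + deriv f 0 := by
    intro t
    have hd : Differentiable ℝ (fun t => deriv f t - lam * t) := by fun_prop
    have h0 : ∀ t, deriv (fun t => deriv f t - lam * t) t = 0 := by
      intro t
      have : HasDerivAt (fun t => deriv f t - lam * t) (deriv (deriv f) t - lam * 1) t :=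
        (h2 t).hasDerivAt.sub ((hasDerivAt_id t).const_mul lam)
      rw [this.deriv, h3]; ring
    have := is_const_of_deriv_eq_zero hd h0 t 0
    simp only [mul_zero, sub_zero] at this
    linarith
  have hd : Differentiable ℝ (fun t => f t - (lam * t ^ 2 / 2 + deriv f 0 * t)) := by fun_prop
  have h0 : ∀ t, deriv (fun t => f t - (lam * t ^ 2 / 2 + deriv f 0 * t)) t = 0 := by
    intro t
    have h4 : HasDerivAt (fun t : ℝ => lam * t ^ 2 / 2 + deriv f 0 * t)
        (lam * (2 * t) / 2 + deriv f 0 * 1) t := by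
      have h5 : HasDerivAt (fun t : ℝ => t ^ 2) (2 * t) t := by
        simpa using hasDerivAt_pow 2 t
      exact ((h5.const_mul lam).div_const 2).add ((hasDerivAt_id t).const_mul _)
    have h6 : HasDerivAt (fun t => f t - (lam * t ^ 2 / 2 + deriv f 0 * t))
        (deriv f t - (lam * (2 * t) / 2 + deriv f 0 * 1)) t := (h1 t).hasDerivAt.sub h4
    rw [h6.deriv, hk]; ring
  have := is_const_of_deriv_eq_zero hd h0 t 0
  norm_num at this
  linarith

end Vale.Agent.P252
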