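import Mathlib

/-!
# P252: the ordinary differential inequality of the radial block
-/

namespace Vale.Agent.P252

open Set Filter Topology

/-- The radial block equation with a negative constant has no entire solution. -/
theorem radial_ode_contra {m : ℕ} {a c : ℝ} (ha : (m : ℝ) / ((m : ℝ) + 1) < a) (ha1 : a < 1)
    (hc : c < 0) {p D φ φ' : ℝ → ℝ}
    (hp : ∀ r, 0 < r → 0 < p r) (hD : ∀ r, 0 < r → 0 < D r)
    (hφ : ∀ r, 0 < r → φ r = (D r) ^ (-a))
    (hφ' : ∀ r, 0 < r → HasDerivAt φ (φ' r) r)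
    (hpk : ∀ r, 0 < r → HasDerivAt (fun r => p r ^ (m + 1)) (((m : ℝ) + 1) * r ^ m * D r) r)
    (hZ : ∀ r, 0 < r → HasDerivAt (fun r => p r ^ m * φ' r) (c * r ^ m * (D r) ^ (1 - a)) r)
    (hpc : ContinuousWithinAt (fun r => p r ^ (m + 1)) (Ici 0) 0) (hp0 : p 0 = 0)
    (hZc : ContinuousWithinAt (fun r => p r ^ m * φ' r) (Ici 0) 0) (hZ0 : p 0 ^ m * φ' 0 = 0) :
    False := by
  have hm1 : (0 : ℝ) < (m : ℝ) + 1 := by positivity
  have ha0 : 0 < a := lt_of_le_of_lt (by positivity) ha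
  set Z : ℝ → ℝ := fun r => p r ^ m * φ' r with hZdef
  -- S1
  have hZcont : ContinuousOn Z (Ici 0) := by
    intro r hr
    rcases eq_or_lt_of_le (mem_Ici.1 hr) with h | h
    · rw [← h]; exact hZc
    · exact (hZ r h).continuousAt.continuousWithinAt
  have hZanti : AntitoneOn Z (Ici 0) := by
    apply antitoneOn_of_deriv_nonpos (convex_Ici 0) hZcont
    · rw [interior_Ici]
      exact fun r hr => (hZ r hr).differentiableAt.differentiableWithinAt
    · rw [interior_Ici]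
      intro r hr
      rw [(hZ r hr).deriv]
      have h1 : 0 ≤ r ^ m * (D r) ^ (1 - a) :=
        mul_nonneg (pow_nonneg (le_of_lt hr) m) (Real.rpow_nonneg (hD r hr).le _)
      nlinarith
  have hZle : ∀ r, 0 < r → Z r ≤ 0 := fun r hr => by
    have := hZanti (mem_Ici.2 le_rfl) (mem_Ici.2 hr.le) hr.le
    rwa [show Z 0 = 0 from hZ0] at this
  -- S2
  have hφ'le : ∀ r, 0 < r → φ' r ≤ 0 := fun r hr => by
    by_contra h
    have h1 : 0 < φ' r := not_le.1 h
    have h2 : 0 < Z r := mul_pos (pow_pos (hp r hr) m) h1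
    linarith [hZle r hr]
  have hφanti : AntitoneOn φ (Ioi 0) := by
    apply antitoneOn_of_deriv_nonpos (convex_Ioi 0)
    · exact fun r hr => (hφ' r hr).continuousAt.continuousWithinAt
    · rw [interior_Ioi]
      exact fun r hr => (hφ' r hr).differentiableAt.differentiableWithinAt
    · rw [interior_Ioi]
      intro r hr
      rw [(hφ' r hr).deriv]; exact hφ'le r hr
  have hDmono : ∀ ρ r, 0 < ρ → ρ ≤ r → D ρ ≤ D r := by
    intro ρ r hρ hρr
    have hr : 0 < r := lt_of_lt_of_le hρ hρr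
    by_contra h
    have h1 : D r < D ρ := not_le.1 h
    have h2 : (D ρ) ^ (-a) < (D r) ^ (-a) :=
      Real.rpow_lt_rpow_of_neg (hD r hr) h1 (by linarith)
    have h3 := hφanti (mem_Ioi.2 hρ) (mem_Ioi.2 hr) hρr
    rw [hφ r hr, hφ ρ hρ] at h3
    linarith
  -- S3
  have hS3 : ∀ r, 0 < r → p r ^ (m + 1) ≤ D r * r ^ (m + 1) := by
    intro r hr
    set G : ℝ → ℝ := fun ρ => p ρ ^ (m + 1) - D r * ρ ^ (m + 1) with hG
    have hGd : ∀ ρ, 0 < ρ → HasDerivAt G
        (((m : ℝ) + 1) * ρ ^ m * D ρ - D r * (((m + 1 : ℕ) : ℝ) * ρ ^ m)) ρ := by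
      intro ρ hρ
      have h1 : HasDerivAt (fun ρ : ℝ => ρ ^ (m + 1)) (((m + 1 : ℕ) : ℝ) * ρ ^ m) ρ := by
        simpa using hasDerivAt_pow (m + 1) ρ
      exact (hpk ρ hρ).sub (h1.const_mul (D r))
    have hGanti : AntitoneOn G (Icc 0 r) := by
      apply antitoneOn_of_deriv_nonpos (convex_Icc 0 r)
      · intro ρ hρ
        rcases eq_or_lt_of_le hρ.1 with h | h
        · rw [← h]
          apply ContinuousWithinAt.sub (hpc.mono Icc_subset_Ici_self)
          apply Continuous.continuousWithinAt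
          fun_prop
        · exact (hGd ρ h).continuousAt.continuousWithinAt
      · rw [interior_Icc]
        exact fun ρ hρ => (hGd ρ hρ.1).differentiableAt.differentiableWithinAt
      · rw [interior_Icc]
        intro ρ hρ
        rw [(hGd ρ hρ.1).deriv]
        have h1 := hDmono ρ r hρ.1 hρ.2.le
        have h2 : 0 ≤ ((m : ℝ) + 1) * ρ ^ m := mul_nonneg hm1.le (pow_nonneg hρ.1.le m)
        push_cast
        nlinarith
    have h := hGanti (left_mem_Icc.2 hr.le) (right_mem_Icc.2 hr.le) hr.le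
    simp only [hG, hp0] at h
    have h0 : (0 : ℝ) ^ (m + 1) = 0 := by simp
    rw [h0] at h
    linarith
  -- S4
  set C0 : ℝ := (-c) * (D 1) ^ (1 - a) / ((m : ℝ) + 1) with hC0
  have hC0pos : 0 < C0 :=
    div_pos (mul_pos (by linarith) (Real.rpow_pos_of_pos (hD 1 one_pos) _)) hm1
  have hS4 : ∀ r, 1 ≤ r → Z r ≤ C0 - C0 * r ^ (m + 1) := by
    intro r hr
    set W : ℝ → ℝ := fun ρ => Z ρ + C0 * ρ ^ (m + 1) with hW
    have hWd : ∀ ρ, 0 < ρ → HasDerivAt W
        (c * ρ ^ m * (D ρ) ^ (1 - a) + C0 * (((m + 1 : ℕ) : ℝ) * ρ ^ m)) ρ := by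
      intro ρ hρ
      have h1 : HasDerivAt (fun ρ : ℝ => ρ ^ (m + 1)) (((m + 1 : ℕ) : ℝ) * ρ ^ m) ρ := by
        simpa using hasDerivAt_pow (m + 1) ρ
      exact (hZ ρ hρ).add (h1.const_mul C0)
    have hWanti : AntitoneOn W (Ici 1) := by
      apply antitoneOn_of_deriv_nonpos (convex_Ici 1)
      · exact fun ρ hρ =>
          (hWd ρ (lt_of_lt_of_le one_pos hρ)).continuousAt.continuousWithinAt
      · rw [interior_Ici]
        exact fun ρ hρ =>
          (hWd ρ (lt_trans one_pos hρ)).differentiableAt.differentiableWithinAt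
      · rw [interior_Ici]
        intro ρ hρ
        have hρ0 : 0 < ρ := lt_trans one_pos hρ
        rw [(hWd ρ hρ0).deriv]
        have h1 : (D 1) ^ (1 - a) ≤ (D ρ) ^ (1 - a) :=
          Real.rpow_le_rpow (hD 1 one_pos).le (hDmono 1 ρ one_pos (le_of_lt hρ)) (by linarith)
        have h2 : C0 * (((m + 1 : ℕ) : ℝ) * ρ ^ m) = (-c) * ρ ^ m * (D 1) ^ (1 - a) := by
          rw [hC0]; push_cast; field_simp
        rw [h2]
        have h3 : 0 ≤ (-c) * ρ ^ m := mul_nonneg (by linarith) (pow_nonneg hρ0.le m)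
        nlinarith
    have h := hWanti (mem_Ici.2 le_rfl) (mem_Ici.2 hr) hr
    simp only [hW, one_pow, mul_one] at h
    linarith [hZle 1 one_pos]
  -- S5
  set γ : ℝ := (m : ℝ) / (((m : ℝ) + 1) * a) with hγ
  have hγ0 : 0 ≤ γ := by positivity
  have hγ1 : γ < 1 := by
    rw [hγ, div_lt_one (by positivity)]
    rwa [div_lt_iff₀ hm1, mul_comm] at ha
  have hφpos : ∀ r, 0 < r → 0 < φ r := fun r hr => by
    rw [hφ r hr]; exact Real.rpow_pos_of_pos (hD r hr) _
  have hS5 : ∀ r, 2 ≤ r → φ' r ≤ -(C0 / 2) * r * (φ r) ^ γ := by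
    intro r hr
    have hr0 : 0 < r := by linarith
    set β : ℝ := (D r) ^ (1 / ((m : ℝ) + 1)) with hβ
    have hβpos : 0 < β := Real.rpow_pos_of_pos (hD r hr0) _
    have hβpow : β ^ (m + 1) = D r := by
      rw [hβ, ← Real.rpow_natCast, ← Real.rpow_mul (hD r hr0).le]
      have : 1 / ((m : ℝ) + 1) * ((m + 1 : ℕ) : ℝ) = 1 := by push_cast; field_simp
      rw [this, Real.rpow_one]
    have hple : p r ≤ β * r := by
      have h1 : p r ^ (m + 1) ≤ (β * r) ^ (m + 1) := by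
        rw [mul_pow, hβpow]; exact hS3 r hr0
      exact (pow_le_pow_iff_left₀ (hp r hr0).le (mul_pos hβpos hr0).le (Nat.succ_ne_zero m)).1 h1
    have hpm : p r ^ m ≤ β ^ m * r ^ m := by
      rw [← mul_pow]; exact pow_le_pow_left₀ (hp r hr0).le hple m
    have hφγ : (φ r) ^ γ * β ^ m = 1 := by
      rw [hφ r hr0, ← Real.rpow_mul (hD r hr0).le, hβ, ← Real.rpow_natCast,
        ← Real.rpow_mul (hD r hr0).le, ← Real.rpow_add (hD r hr0)]
      have : -a * γ + 1 / ((m : ℝ) + 1) * (m : ℝ) = 0 := by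
        rw [hγ]; field_simp; ring
      rw [this, Real.rpow_zero]
    have hrpow : 2 ≤ r ^ (m + 1) := by
      calc (2 : ℝ) ≤ r := hr
        _ = r ^ 1 := (pow_one r).symm
        _ ≤ r ^ (m + 1) := pow_le_pow_right₀ (by linarith) (by omega)
    have hZr : Z r ≤ -(C0 / 2) * r ^ (m + 1) := by
      have := hS4 r (by linarith)
      nlinarith
    -- `p^m φ' ≤ -(C0/2) r^(m+1)` and `φ' ≤ 0`, `p^m ≤ β^m r^m`
    have h1 : β ^ m * r ^ m * φ' r ≤ p r ^ m * φ' r :=
      mul_le_mul_of_nonpos_right hpm (hφ'le r hr0)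
    have h2 : β ^ m * r ^ m * φ' r ≤ -(C0 / 2) * r ^ (m + 1) := le_trans h1 hZr
    have hrm : 0 < r ^ m := pow_pos hr0 m
    have hβm : 0 < β ^ m := pow_pos hβpos m
    have h3 : β ^ m * φ' r ≤ -(C0 / 2) * r := by
      have h4 : (β ^ m * φ' r) * r ^ m ≤ (-(C0 / 2) * r) * r ^ m := by
        calc (β ^ m * φ' r) * r ^ m = β ^ m * r ^ m * φ' r := by ring
          _ ≤ -(C0 / 2) * r ^ (m + 1) := h2
          _ = (-(C0 / 2) * r) * r ^ m := by ring
      exact le_of_mul_le_mul_right h4 hrm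
    have hφγpos : 0 < (φ r) ^ γ := Real.rpow_pos_of_pos (hφpos r hr0) _
    calc φ' r = ((φ r) ^ γ * β ^ m) * φ' r := by rw [hφγ, one_mul]
      _ = (φ r) ^ γ * (β ^ m * φ' r) := by ring
      _ ≤ (φ r) ^ γ * (-(C0 / 2) * r) := mul_le_mul_of_nonneg_left h3 hφγpos.le
      _ = -(C0 / 2) * r * (φ r) ^ γ := by ring
  -- S6
  set κ : ℝ := (1 - γ) * C0 / 4 with hκ
  have hκpos : 0 < κ := by
    rw [hκ]; exact div_pos (mul_pos (by linarith) hC0pos) (by norm_num)
  set V : ℝ → ℝ := fun r => (φ r) ^ (1 - γ) + κ * r ^ 2 with hV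
  have hVd : ∀ r, 0 < r → HasDerivAt V
      (φ' r * (1 - γ) * (φ r) ^ (1 - γ - 1) + κ * (2 * r)) r := by
    intro r hr
    have h1 := (hφ' r hr).rpow_const (p := 1 - γ) (Or.inl (hφpos r hr).ne')
    have h2 : HasDerivAt (fun r : ℝ => r ^ 2) (2 * r) r := by
      simpa using hasDerivAt_pow 2 r
    exact h1.add (h2.const_mul κ)
  have hVanti : AntitoneOn V (Ici 2) := by
    apply antitoneOn_of_deriv_nonpos (convex_Ici 2)
    · exact fun r hr => (hVd r (lt_of_lt_of_le two_pos hr)).continuousAt.continuousWithinAt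
    · rw [interior_Ici]
      exact fun r hr => (hVd r (lt_trans two_pos hr)).differentiableAt.differentiableWithinAt
    · rw [interior_Ici]
      intro r hr
      have hr0 : 0 < r := lt_trans two_pos hr
      rw [(hVd r hr0).deriv]
      have h1 := hS5 r (le_of_lt hr)
      have h2 : 0 < (φ r) ^ (1 - γ - 1) := Real.rpow_pos_of_pos (hφpos r hr0) _
      have h3 : (φ r) ^ γ * (φ r) ^ (1 - γ - 1) = 1 := by
        rw [← Real.rpow_add (hφpos r hr0)]
        have : γ + (1 - γ - 1) = 0 := by ring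
        rw [this, Real.rpow_zero]
      have h4 : φ' r * (φ r) ^ (1 - γ - 1) ≤ -(C0 / 2) * r := by
        calc φ' r * (φ r) ^ (1 - γ - 1)
            ≤ (-(C0 / 2) * r * (φ r) ^ γ) * (φ r) ^ (1 - γ - 1) :=
              mul_le_mul_of_nonneg_right h1 h2.le
          _ = -(C0 / 2) * r * ((φ r) ^ γ * (φ r) ^ (1 - γ - 1)) := by ring
          _ = -(C0 / 2) * r := by rw [h3, mul_one]
      have h5 : 0 < 1 - γ := by linarith
      have h6 : φ' r * (1 - γ) * (φ r) ^ (1 - γ - 1)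
          = (1 - γ) * (φ' r * (φ r) ^ (1 - γ - 1)) := by ring
      rw [h6, hκ]
      nlinarith
  have hV2pos : 0 < V 2 := by
    have h1 : 0 < (φ 2) ^ (1 - γ) := Real.rpow_pos_of_pos (hφpos 2 two_pos) _
    simp only [hV]
    positivity
  set r₁ : ℝ := 2 + V 2 / κ with hr₁
  have hr₁2 : 2 ≤ r₁ := by
    have : 0 ≤ V 2 / κ := (div_pos hV2pos hκpos).le
    linarith
  have h := hVanti (mem_Ici.2 le_rfl) (mem_Ici.2 hr₁2) hr₁2
  have h1 : 0 < (φ r₁) ^ (1 - γ) := Real.rpow_pos_of_pos (hφpos r₁ (by linarith)) _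
  have h2 : κ * r₁ ^ 2 < V 2 := by
    have : V r₁ = (φ r₁) ^ (1 - γ) + κ * r₁ ^ 2 := rfl
    linarith
  have h3 : κ * r₁ = 2 * κ + V 2 := by
    rw [hr₁]; field_simp
  have h4 : κ * r₁ ≤ κ * r₁ ^ 2 := by
    apply mul_le_mul_of_nonneg_left _ hκpos.le
    nlinarith
  linarith

end Vale.Agent.P252
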