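import Vale.Agent.P252.OdeRad

/-!
# P252: the radial block with vanishing constant
-/

namespace Vale.Agent.P252

open Set Filter Topology

theorem eq_of_hasDerivAt_zero {f : ℝ → ℝ} {r : ℝ} (hr : 0 ≤ r) (hc : ContinuousOn f (Icc 0 r))
    (hd : ∀ ρ ∈ Ioo 0 r, HasDerivAt f 0 ρ) : f r = f 0 := by
  have hdiff : DifferentiableOn ℝ f (interior (Icc 0 r)) := by
    rw [interior_Icc]
    exact fun ρ hρ => (hd ρ hρ).differentiableAt.differentiableWithinAt
  have h1 := Convex.image_sub_le_mul_sub_of_deriv_le (convex_Icc 0 r) hc hdiff (C := 0)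
    (fun ρ hρ => by rw [interior_Icc] at hρ; rw [(hd ρ hρ).deriv])
    0 (left_mem_Icc.2 hr) r (right_mem_Icc.2 hr) hr
  have h2 := Convex.mul_sub_le_image_sub_of_le_deriv (convex_Icc 0 r) hc hdiff (C := 0)
    (fun ρ hρ => by rw [interior_Icc] at hρ; rw [(hd ρ hρ).deriv])
    0 (left_mem_Icc.2 hr) r (right_mem_Icc.2 hr) hr
  linarith

theorem eq_of_hasDerivAt_zero' {f : ℝ → ℝ} {r₀ r : ℝ} (h₀ : 0 < r₀) (hr : 0 < r)
    (hd : ∀ ρ, 0 < ρ → HasDerivAt f 0 ρ) : f r = f r₀ := by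
  have hdiff : DifferentiableOn ℝ f (Ioi 0) :=
    fun ρ hρ => (hd ρ hρ).differentiableAt.differentiableWithinAt
  exact (convex_Ioi (0 : ℝ)).is_const_of_fderivWithin_eq_zero hdiff
    (fun ρ hρ => by
      rw [fderivWithin_of_isOpen isOpen_Ioi hρ]
      ext
      simp [(hd ρ hρ).deriv]) (mem_Ioi.2 hr) (mem_Ioi.2 h₀)

/-- The radial block equation with vanishing constant: `p` is linear. -/
theorem radial_ode_zero {m : ℕ} {a : ℝ} (ha0 : 0 < a) {p D φ φ' : ℝ → ℝ}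
    (hp : ∀ r, 0 < r → 0 < p r) (hD : ∀ r, 0 < r → 0 < D r)
    (hφ : ∀ r, 0 < r → φ r = (D r) ^ (-a))
    (hφ' : ∀ r, 0 < r → HasDerivAt φ (φ' r) r)
    (hpk : ∀ r, 0 < r → HasDerivAt (fun r => p r ^ (m + 1)) (((m : ℝ) + 1) * r ^ m * D r) r)
    (hZ : ∀ r, 0 < r → HasDerivAt (fun r => p r ^ m * φ' r) 0 r)
    (hpc : ContinuousWithinAt (fun r => p r ^ (m + 1)) (Ici 0) 0) (hp0 : p 0 = 0)
    (hZc : ContinuousWithinAt (fun r => p r ^ m * φ' r) (Ici 0) 0) (hZ0 : p 0 ^ m * φ' 0 = 0) :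
    ∀ r, 0 < r → p r = p 1 * r := by
  have hZzero : ∀ r, 0 < r → p r ^ m * φ' r = 0 := by
    intro r hr
    have h := eq_of_hasDerivAt_zero (f := fun r => p r ^ m * φ' r) hr.le
      (by
        intro ρ hρ
        rcases eq_or_lt_of_le hρ.1 with h | h
        · rw [← h]; exact hZc.mono Icc_subset_Ici_self
        · exact (hZ ρ h).continuousAt.continuousWithinAt)
      (fun ρ hρ => hZ ρ hρ.1)
    rw [h, hZ0]
  have hφ'zero : ∀ r, 0 < r → φ' r = 0 := fun r hr =>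
    (mul_eq_zero.1 (hZzero r hr)).resolve_left (pow_pos (hp r hr) m).ne'
  have hφconst : ∀ r, 0 < r → φ r = φ 1 := fun r hr =>
    eq_of_hasDerivAt_zero' one_pos hr (fun ρ hρ => by
      have := hφ' ρ hρ
      rwa [hφ'zero ρ hρ] at this)
  have hDconst : ∀ r, 0 < r → D r = D 1 := by
    intro r hr
    have h1 := hφconst r hr
    rw [hφ r hr, hφ 1 one_pos] at h1
    have h2 : ∀ ρ, 0 < ρ → D ρ = ((D ρ) ^ (-a)) ^ (-(1 / a)) := fun ρ hρ => by
      rw [← Real.rpow_mul (hD ρ hρ).le]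
      have : -a * -(1 / a) = 1 := by field_simp
      rw [this, Real.rpow_one]
    rw [h2 r hr, h2 1 one_pos, h1]
  have hpow : ∀ r, 0 < r → p r ^ (m + 1) = D 1 * r ^ (m + 1) := by
    intro r hr
    have hGd : ∀ ρ, 0 < ρ → HasDerivAt (fun ρ => p ρ ^ (m + 1) - D 1 * ρ ^ (m + 1)) 0 ρ := by
      intro ρ hρ
      have h1 : HasDerivAt (fun ρ : ℝ => ρ ^ (m + 1)) (((m + 1 : ℕ) : ℝ) * ρ ^ m) ρ := by
        simpa using hasDerivAt_pow (m + 1) ρ
      have h2 := (hpk ρ hρ).sub (h1.const_mul (D 1))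
      have h3 : ((m : ℝ) + 1) * ρ ^ m * D ρ - D 1 * (((m + 1 : ℕ) : ℝ) * ρ ^ m) = 0 := by
        rw [hDconst ρ hρ]; push_cast; ring
      rwa [h3] at h2
    have h := eq_of_hasDerivAt_zero (f := fun ρ => p ρ ^ (m + 1) - D 1 * ρ ^ (m + 1)) hr.le
      (by
        intro ρ hρ
        rcases eq_or_lt_of_le hρ.1 with h | h
        · rw [← h]
          apply ContinuousWithinAt.sub (hpc.mono Icc_subset_Ici_self)
          apply Continuous.continuousWithinAt
          fun_prop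
        · exact (hGd ρ h).continuousAt.continuousWithinAt)
      (fun ρ hρ => hGd ρ hρ.1)
    simp only [hp0] at h
    have h0 : (0 : ℝ) ^ (m + 1) = 0 := by simp
    rw [h0] at h
    linarith
  intro r hr
  have h1 : p r ^ (m + 1) = (p 1 * r) ^ (m + 1) := by
    rw [mul_pow, hpow r hr, hpow 1 one_pos]; ring
  exact (pow_left_inj₀ (hp r hr).le (mul_pos (hp 1 one_pos) hr).le (Nat.succ_ne_zero m)).1 h1

end Vale.Agent.P252
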