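import Vale.Agent.P252.Basic

/-!
# P252: partial derivatives of functions of `|x_S|^2 / 2` and of the remaining coordinates
-/

namespace Vale.Agent.P252

open Matrix Filter Topology

variable {n : ℕ}

/-- `sq S x = (1/2) ∑_{i ∈ S} x_i^2`. -/
noncomputable def sq (S : Finset (Fin n)) (x : Fin n → ℝ) : ℝ := 1 / 2 * ∑ i ∈ S, (x i) ^ 2

theorem sq_line_mem {S : Finset (Fin n)} {i : Fin n} (hi : i ∈ S) (x : Fin n → ℝ) (t : ℝ) :
    sq S (x + t • (Pi.single i (1 : ℝ) : Fin n → ℝ)) = sq S x + t * x i + t ^ 2 / 2 := by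
  unfold sq
  rw [← Finset.add_sum_erase _ _ hi, ← Finset.add_sum_erase S (fun l => (x l) ^ 2) hi]
  have h1 : ∑ l ∈ S.erase i, ((x + t • (Pi.single i (1 : ℝ) : Fin n → ℝ)) l) ^ 2
      = ∑ l ∈ S.erase i, (x l) ^ 2 := by
    refine Finset.sum_congr rfl fun l hl => ?_
    rw [add_smul_single_apply, if_neg (Finset.ne_of_mem_erase hl)]
  rw [h1, add_smul_single_apply, if_pos rfl]
  ring

theorem sq_line_not_mem {S : Finset (Fin n)} {i : Fin n} (hi : i ∉ S) (x : Fin n → ℝ) (t : ℝ) :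
    sq S (x + t • (Pi.single i (1 : ℝ) : Fin n → ℝ)) = sq S x := by
  unfold sq
  congr 1
  refine Finset.sum_congr rfl fun l hl => ?_
  have hne : l ≠ i := fun h => hi (h ▸ hl)
  rw [add_smul_single_apply, if_neg hne]

theorem prodc_line_mem {S : Finset (Fin n)} {i : Fin n} (hi : i ∈ S) (ψ : Fin n → ℝ → ℝ)
    (x : Fin n → ℝ) (t : ℝ) :
    ∏ l ∈ Sᶜ, ψ l ((x + t • (Pi.single i (1 : ℝ) : Fin n → ℝ)) l) = ∏ l ∈ Sᶜ, ψ l (x l) := by
  refine Finset.prod_congr rfl fun l hl => ?_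
  have hne : l ≠ i := fun h => (Finset.mem_compl.1 hl) (h ▸ hi)
  rw [add_smul_single_apply, if_neg hne]

theorem prodc_line_not_mem {S : Finset (Fin n)} {i : Fin n} (hi : i ∉ S) (ψ : Fin n → ℝ → ℝ)
    (x : Fin n → ℝ) (t : ℝ) :
    ∏ l ∈ Sᶜ, ψ l ((x + t • (Pi.single i (1 : ℝ) : Fin n → ℝ)) l)
      = ψ i (x i + t) * ∏ l ∈ Sᶜ.erase i, ψ l (x l) := by
  rw [← Finset.mul_prod_erase _ _ (Finset.mem_compl.2 hi)]
  congr 1
  · rw [add_smul_single_apply, if_pos rfl]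
  · refine Finset.prod_congr rfl fun l hl => ?_
    rw [add_smul_single_apply, if_neg (Finset.ne_of_mem_erase hl)]

theorem sumc_line_mem {S : Finset (Fin n)} {i : Fin n} (hi : i ∈ S) (ψ : Fin n → ℝ → ℝ)
    (x : Fin n → ℝ) (t : ℝ) :
    ∑ l ∈ Sᶜ, ψ l ((x + t • (Pi.single i (1 : ℝ) : Fin n → ℝ)) l) = ∑ l ∈ Sᶜ, ψ l (x l) := by
  refine Finset.sum_congr rfl fun l hl => ?_
  have hne : l ≠ i := fun h => (Finset.mem_compl.1 hl) (h ▸ hi)
  rw [add_smul_single_apply, if_neg hne]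

theorem sumc_line_not_mem {S : Finset (Fin n)} {i : Fin n} (hi : i ∉ S) (ψ : Fin n → ℝ → ℝ)
    (x : Fin n → ℝ) (t : ℝ) :
    ∑ l ∈ Sᶜ, ψ l ((x + t • (Pi.single i (1 : ℝ) : Fin n → ℝ)) l)
      = ψ i (x i + t) + ∑ l ∈ Sᶜ.erase i, ψ l (x l) := by
  rw [← Finset.add_sum_erase _ _ (Finset.mem_compl.2 hi)]
  congr 1
  · rw [add_smul_single_apply, if_pos rfl]
  · refine Finset.sum_congr rfl fun l hl => ?_
    rw [add_smul_single_apply, if_neg (Finset.ne_of_mem_erase hl)]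

/-- The derivative at `0` of `t ↦ G (s + t a + t^2/2)`. -/
theorem hasDerivAt_comp_quad {G : ℝ → ℝ} {s a : ℝ} (hG : DifferentiableAt ℝ G s) :
    HasDerivAt (fun t : ℝ => G (s + t * a + t ^ 2 / 2)) (deriv G s * a) 0 := by
  have h1 : HasDerivAt (fun t : ℝ => s + t * a + t ^ 2 / 2) a 0 := by
    have h2 : HasDerivAt (fun t : ℝ => t ^ 2) (2 * (0 : ℝ)) 0 := by
      simpa using hasDerivAt_pow 2 (0 : ℝ)
    have h3 : HasDerivAt (fun t : ℝ => s + t * a + t ^ 2 / 2) (1 * a + 2 * (0 : ℝ) / 2) 0 :=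
      (((hasDerivAt_id (0 : ℝ)).mul_const a).const_add s).add (h2.div_const 2)
    simpa using h3
  have h4 : HasDerivAt G (deriv G s) ((fun t : ℝ => s + t * a + t ^ 2 / 2) 0) := by
    simpa using hG.hasDerivAt
  exact h4.comp 0 h1

/-- First derivatives of `F (sq S y) + ∑_{l ∉ S} f_l (y_l)`, direction in `S`. -/
theorem pd_radsum_mem {S : Finset (Fin n)} {j : Fin n} (hj : j ∈ S) (F : ℝ → ℝ)
    (f : Fin n → ℝ → ℝ) (y : Fin n → ℝ) (hF : DifferentiableAt ℝ F (sq S y)) :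
    pd j (fun y => F (sq S y) + ∑ l ∈ Sᶜ, f l (y l)) y = deriv F (sq S y) * y j := by
  unfold pd lineDeriv
  simp only [sq_line_mem hj, sumc_line_mem hj]
  rw [deriv_add_const]
  exact (hasDerivAt_comp_quad hF).deriv

/-- First derivatives of `F (sq S y) + ∑_{l ∉ S} f_l (y_l)`, direction outside `S`. -/
theorem pd_radsum_not_mem {S : Finset (Fin n)} {j : Fin n} (hj : j ∉ S) (F : ℝ → ℝ)
    (f : Fin n → ℝ → ℝ) (y : Fin n → ℝ) :
    pd j (fun y => F (sq S y) + ∑ l ∈ Sᶜ, f l (y l)) y = deriv (f j) (y j) := by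
  unfold pd lineDeriv
  simp only [sq_line_not_mem hj, sumc_line_not_mem hj]
  rw [deriv_const_add, deriv_add_const, deriv_comp_const_add, add_zero]

/-- Derivative of `G (sq S y) * y_j * K y`, directions `i, j ∈ S`, where `K` only depends on
the coordinates outside `S`. -/
theorem pd_rad_lin_mem {S : Finset (Fin n)} {i j : Fin n} (hi : i ∈ S) (G : ℝ → ℝ)
    (ψ : Fin n → ℝ → ℝ) (x : Fin n → ℝ) (hG : DifferentiableAt ℝ G (sq S x)) :
    pd i (fun y => G (sq S y) * y j * ∏ l ∈ Sᶜ, ψ l (y l)) x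
      = (deriv G (sq S x) * x i * x j + (if i = j then G (sq S x) else 0))
        * ∏ l ∈ Sᶜ, ψ l (x l) := by
  unfold pd lineDeriv
  simp only [sq_line_mem hi, prodc_line_mem hi]
  rw [deriv_mul_const_field]
  congr 1
  have h1 := hasDerivAt_comp_quad (a := x i) hG
  by_cases hij : i = j
  · subst hij
    simp only [add_smul_single_apply, if_true]
    have h2 : HasDerivAt (fun t : ℝ => x i + t) 1 0 := (hasDerivAt_id (0 : ℝ)).const_add (x i)
    have h3 : HasDerivAt (fun t : ℝ => G (sq S x + t * x i + t ^ 2 / 2) * (x i + t))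
        (deriv G (sq S x) * x i * (x i + 0) + G (sq S x + 0 * x i + 0 ^ 2 / 2) * 1) 0 :=
      h1.mul h2
    rw [h3.deriv]
    simp
  · simp only [add_smul_single_apply, if_neg (Ne.symm hij), if_neg hij]
    rw [deriv_mul_const_field, h1.deriv]
    ring

/-- Derivative of `G (sq S y) * K y`, direction `j ∈ S`. -/
theorem pd_rad_mem {S : Finset (Fin n)} {j : Fin n} (hj : j ∈ S) (G : ℝ → ℝ)
    (ψ : Fin n → ℝ → ℝ) (y : Fin n → ℝ) (hG : DifferentiableAt ℝ G (sq S y)) :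
    pd j (fun y => G (sq S y) * ∏ l ∈ Sᶜ, ψ l (y l)) y
      = deriv G (sq S y) * y j * ∏ l ∈ Sᶜ, ψ l (y l) := by
  unfold pd lineDeriv
  simp only [sq_line_mem hj, prodc_line_mem hj]
  rw [deriv_mul_const_field, (hasDerivAt_comp_quad hG).deriv]

/-- Derivative of `G (sq S y) * y_j`, direction `i ∉ S`, `j ∈ S`. -/
theorem pd_rad_lin_not_mem {S : Finset (Fin n)} {i j : Fin n} (hi : i ∉ S) (hj : j ∈ S)
    (G : ℝ → ℝ) (x : Fin n → ℝ) :
    pd i (fun y => G (sq S y) * y j) x = 0 := by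
  unfold pd lineDeriv
  have hne : j ≠ i := fun h => hi (h ▸ hj)
  simp only [sq_line_not_mem hi, add_smul_single_apply, if_neg hne]
  exact deriv_const _ _

/-- Derivative of `G (sq S y) * K y`, direction `j ∉ S`. -/
theorem pd_rad_not_mem {S : Finset (Fin n)} {j : Fin n} (hj : j ∉ S) (G : ℝ → ℝ)
    (ψ : Fin n → ℝ → ℝ) (y : Fin n → ℝ) :
    pd j (fun y => G (sq S y) * ∏ l ∈ Sᶜ, ψ l (y l)) y
      = G (sq S y) * (deriv (ψ j) (y j) * ∏ l ∈ Sᶜ.erase j, ψ l (y l)) := by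
  unfold pd lineDeriv
  simp only [sq_line_not_mem hj, prodc_line_not_mem hj]
  rw [deriv_const_mul_field, deriv_mul_const_field, deriv_comp_const_add, add_zero]

theorem prodc_update_erase {S : Finset (Fin n)} {j : Fin n} (hj : j ∉ S) (φ : Fin n → ℝ → ℝ)
    (ψ : ℝ → ℝ) (y : Fin n → ℝ) :
    ∏ l ∈ Sᶜ, (Function.update φ j ψ) l (y l) = ψ (y j) * ∏ l ∈ Sᶜ.erase j, φ l (y l) := by
  rw [← Finset.mul_prod_erase _ _ (Finset.mem_compl.2 hj)]
  congr 1
  · simp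
  · refine Finset.prod_congr rfl fun l hl => ?_
    rw [Function.update_of_ne (Finset.ne_of_mem_erase hl)]

end Vale.Agent.P252
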