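import Vale.Agent.P252.Basic

/-!
# P252: the affine maximal equation for separable functions
-/

namespace Vale.Agent.P252

open Matrix Filter Topology

variable {n : ℕ}

theorem cof_eq_adjugate {u : (Fin n → ℝ) → ℝ} {x : Fin n → ℝ} (h : (hess u x).det ≠ 0) :
    cof u x = (hess u x).adjugate := by
  unfold cof
  rw [Matrix.inv_def, smul_smul, Ring.inverse_eq_inv', mul_inv_cancel₀ h, one_smul]

theorem prod_update_erase (φ : Fin n → ℝ → ℝ) (j : Fin n) (ψ : ℝ → ℝ) (y : Fin n → ℝ) :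
    ∏ l, (Function.update φ j ψ) l (y l) = ψ (y j) * ∏ l ∈ Finset.univ.erase j, φ l (y l) := by
  rw [← Finset.mul_prod_erase _ _ (Finset.mem_univ j)]
  congr 1
  · simp
  · refine Finset.prod_congr rfl fun l hl => ?_
    rw [Function.update_of_ne (Finset.ne_of_mem_erase hl)]

/-- For a separable function with positive definite Hessian, (AM) is an identity between
one-variable functions. -/
theorem am_sep {Ω : Set (Fin n → ℝ)} (hΩ : IsOpen Ω) {u : (Fin n → ℝ) → ℝ}
    {f : Fin n → ℝ → ℝ} (hu : ∀ y ∈ Ω, u y = ∑ j, f j (y j))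
    (hpos : ∀ y ∈ Ω, ∀ j, 0 < deriv (deriv (f j)) (y j))
    {x : Fin n → ℝ} (hx : x ∈ Ω) (hAM : AffineMaximalAt u x) :
    ∑ i, (∏ l ∈ Finset.univ.erase i, deriv (deriv (f l)) (x l)) *
      (deriv (deriv (fun t => (deriv (deriv (f i)) t) ^ (-(((n : ℝ) + 1) / ((n : ℝ) + 2))))) (x i) *
        ∏ l ∈ Finset.univ.erase i,
          (deriv (deriv (f l)) (x l)) ^ (-(((n : ℝ) + 1) / ((n : ℝ) + 2)))) = 0 := by
  set a : ℝ := ((n : ℝ) + 1) / ((n : ℝ) + 2) with ha
  set φ : Fin n → ℝ → ℝ := fun i t => (deriv (deriv (f i)) t) ^ (-a) with hφ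
  have hw : ∀ y ∈ Ω, wfun u y = ∏ j, φ j (y j) := fun y hy => by
    unfold wfun
    rw [hess_sep hΩ hu hy, Matrix.det_diagonal]
    exact (Real.finsetProd_rpow _ _ (fun j _ => (hpos y hy j).le) _).symm
  have hw1 : ∀ j, ∀ y ∈ Ω, pd j (wfun u) y
      = ∏ l, (Function.update φ j (deriv (φ j))) l (y l) := fun j y hy => by
    rw [pd_congr_of_isOpen hΩ hw hy, pd_prod_sep, prod_update_erase]
  have hw2 : ∀ j, pd j (pd j (wfun u)) x
      = deriv (deriv (φ j)) (x j) * ∏ l ∈ Finset.univ.erase j, φ l (x l) := fun j => by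
    rw [pd_congr_of_isOpen hΩ (hw1 j) hx, pd_prod_sep]
    congr 1
    · simp
    · refine Finset.prod_congr rfl fun l hl => ?_
      rw [Function.update_of_ne (Finset.ne_of_mem_erase hl)]
  have hdet : (hess u x).det ≠ 0 := by
    rw [hess_sep hΩ hu hx, Matrix.det_diagonal]
    exact (Finset.prod_pos fun j _ => hpos x hx j).ne'
  unfold AffineMaximalAt at hAM
  rw [cof_eq_adjugate hdet, hess_sep hΩ hu hx, Matrix.adjugate_diagonal] at hAM
  rw [← hAM]
  refine Finset.sum_congr rfl fun i _ => ?_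
  rw [Finset.sum_eq_single i]
  · rw [Matrix.diagonal_apply_eq, hw2 i]
  · intro j _ hji
    rw [Matrix.diagonal_apply_ne _ (Ne.symm hji), zero_mul]
  · intro h; exact absurd (Finset.mem_univ i) h

end Vale.Agent.P252
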