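import Vale.Agent.P252.Rad1
import Vale.Agent.P252.LinAlg
import Vale.Agent.P252.Sep
import Vale.Agent.P252.Ode2

/-!
# P252: the affine maximal equation for `u = F (|x_S|^2/2) + ∑_{l ∉ S} f_l (x_l)`
-/

namespace Vale.Agent.P252

open Matrix Filter Topology Set
open scoped ContDiff

variable {n : ℕ}

theorem pd_rad_lin_mem' {S : Finset (Fin n)} {i j : Fin n} (hi : i ∈ S) (G : ℝ → ℝ)
    (x : Fin n → ℝ) (hG : DifferentiableAt ℝ G (sq S x)) :
    pd i (fun y => G (sq S y) * y j) x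
      = deriv G (sq S x) * x i * x j + (if i = j then G (sq S x) else 0) := by
  have h := pd_rad_lin_mem (j := j) hi G (fun _ _ => 1) x hG
  simpa using h

/-- The diagonal part of the Hessian. -/
noncomputable def dvec (S : Finset (Fin n)) (F : ℝ → ℝ) (f : Fin n → ℝ → ℝ) (x : Fin n → ℝ) :
    Fin n → ℝ :=
  fun i => if i ∈ S then deriv F (sq S x) else deriv (deriv (f i)) (x i)

/-- The vector `x_S`. -/
def vvec (S : Finset (Fin n)) (x : Fin n → ℝ) : Fin n → ℝ := fun i => if i ∈ S then x i else 0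

/-- The Hessian of `u = F (sq S x) + ∑_{l ∉ S} f_l (x_l)`. -/
theorem hess_rad {Ω : Set (Fin n → ℝ)} (hΩ : IsOpen Ω) {J : Set ℝ} (hJ : IsOpen J)
    {S : Finset (Fin n)} {u : (Fin n → ℝ) → ℝ} {F : ℝ → ℝ} {f : Fin n → ℝ → ℝ}
    (hF : ContDiffOn ℝ ∞ F J) (hsJ : ∀ y ∈ Ω, sq S y ∈ J)
    (hu : ∀ y ∈ Ω, u y = F (sq S y) + ∑ l ∈ Sᶜ, f l (y l)) {x : Fin n → ℝ} (hx : x ∈ Ω) :
    hess u x = diagRank (dvec S F f x) (vvec S x) (deriv (deriv F) (sq S x)) := by
  have hFd : ∀ s ∈ J, DifferentiableAt ℝ F s := fun s hs =>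
    (differentiableOn_of_smooth hF s hs).differentiableAt (hJ.mem_nhds hs)
  have hF'd : ∀ s ∈ J, DifferentiableAt ℝ (deriv F) s := fun s hs =>
    (differentiableOn_of_smooth (contDiffOn_deriv hJ hF) s hs).differentiableAt (hJ.mem_nhds hs)
  ext i j
  simp only [hess, Matrix.of_apply, diagRank_apply, dvec, vvec]
  by_cases hj : j ∈ S
  · have h1 : ∀ y ∈ Ω, pd j u y = deriv F (sq S y) * y j := fun y hy => by
      rw [pd_congr_of_isOpen hΩ hu hy, pd_radsum_mem hj F f y (hFd _ (hsJ y hy))]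
    rw [pd_congr_of_isOpen hΩ h1 hx]
    by_cases hi : i ∈ S
    · rw [pd_rad_lin_mem' hi _ x (hF'd _ (hsJ x hx))]
      simp only [hi, hj, if_true]
      ring
    · rw [pd_rad_lin_not_mem hi hj]
      have hne : i ≠ j := fun h => hi (h ▸ hj)
      simp [hi, hne]
  · have h1 : ∀ y ∈ Ω, pd j u y = deriv (f j) (y j) := fun y hy => by
      rw [pd_congr_of_isOpen hΩ hu hy, pd_radsum_not_mem hj]
    rw [pd_congr_of_isOpen hΩ h1 hx, pd_coord]
    by_cases hij : i = j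
    · subst hij; simp [hj]
    · simp [hij, hj]

theorem prod_dvec (S : Finset (Fin n)) (F : ℝ → ℝ) (f : Fin n → ℝ → ℝ) (x : Fin n → ℝ) :
    ∏ i, dvec S F f x i
      = (deriv F (sq S x)) ^ S.card * ∏ l ∈ Sᶜ, deriv (deriv (f l)) (x l) := by
  rw [← Finset.prod_mul_prod_compl S]
  congr 1
  · rw [Finset.prod_congr rfl (fun i hi => by simp only [dvec, if_pos hi] :
      ∀ i ∈ S, dvec S F f x i = deriv F (sq S x)), Finset.prod_const]
  · refine Finset.prod_congr rfl fun l hl => ?_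
    simp only [dvec, if_neg (Finset.mem_compl.1 hl)]

theorem sum_sq_eq (S : Finset (Fin n)) (x : Fin n → ℝ) : ∑ i ∈ S, (x i) ^ 2 = 2 * sq S x := by
  unfold sq; ring

theorem sum_vvec_div (S : Finset (Fin n)) (F : ℝ → ℝ) (f : Fin n → ℝ → ℝ) (x : Fin n → ℝ) :
    ∑ i, vvec S x i ^ 2 / dvec S F f x i = 2 * sq S x / deriv F (sq S x) := by
  rw [← sum_sq_eq, Finset.sum_div]
  have h1 : ∑ i, vvec S x i ^ 2 / dvec S F f x i = ∑ i ∈ S, vvec S x i ^ 2 / dvec S F f x i := by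
    symm
    apply Finset.sum_subset (Finset.subset_univ S)
    intro i _ hi
    simp [vvec, hi]
  rw [h1]
  refine Finset.sum_congr rfl fun i hi => ?_
  simp [vvec, dvec, hi]

end Vale.Agent.P252
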