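import Vale.Agent.P252.Rad2

/-!
# P252: reduction of (AM) to one-variable identities for
`u = F (|x_S|^2/2) + ∑_{l ∉ S} f_l (x_l)`
-/

namespace Vale.Agent.P252

open Matrix Filter Topology Set
open scoped ContDiff

variable {n : ℕ}

/-- `D(s) = F'(s)^k (1 + F''(s) (2 s / F'(s)))`: the determinant of the radial block. -/
noncomputable def Dfun (k : ℕ) (F : ℝ → ℝ) (s : ℝ) : ℝ :=
  (deriv F s) ^ k * (1 + deriv (deriv F) s * (2 * s / deriv F s))

/-- `φ₀ = D^(-a)`. -/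
noncomputable def phi0 (k : ℕ) (a : ℝ) (F : ℝ → ℝ) (s : ℝ) : ℝ := (Dfun k F s) ^ (-a)

/-- The separated quantity of the radial block. -/
noncomputable def T0 (k : ℕ) (a : ℝ) (F : ℝ → ℝ) (s : ℝ) : ℝ :=
  ((2 * s * deriv (deriv (phi0 k a F)) s + k * deriv (phi0 k a F) s) / deriv F s
    - deriv (deriv F) s / (1 + deriv (deriv F) s * (2 * s / deriv F s)) / (deriv F s) ^ 2
      * (4 * s ^ 2 * deriv (deriv (phi0 k a F)) s + 2 * s * deriv (phi0 k a F) s))
    / phi0 k a F s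

/-- `φ = (f'')^(-a)`. -/
noncomputable def phi1 (a : ℝ) (f : ℝ → ℝ) (t : ℝ) : ℝ := (deriv (deriv f) t) ^ (-a)

/-- The separated quantity of a one-dimensional block. -/
noncomputable def T1 (a : ℝ) (f : ℝ → ℝ) (t : ℝ) : ℝ :=
  deriv (deriv (phi1 a f)) t / (deriv (deriv f) t * phi1 a f t)

theorem Dfun_smooth {J : Set ℝ} (hJ : IsOpen J) {F : ℝ → ℝ} (hF : ContDiffOn ℝ ∞ F J)
    (hP : ∀ s ∈ J, 0 < deriv F s) (k : ℕ) : ContDiffOn ℝ ∞ (Dfun k F) J := by
  have h1 : ContDiffOn ℝ ∞ (deriv F) J := contDiffOn_deriv hJ hF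
  have h2 : ContDiffOn ℝ ∞ (deriv (deriv F)) J := contDiffOn_deriv hJ h1
  have h3 : ContDiffOn ℝ ∞ (fun s : ℝ => 2 * s) J := by
    apply ContDiff.contDiffOn; fun_prop
  unfold Dfun
  exact (h1.pow k).mul (contDiffOn_const.add (h2.mul (h3.div h1 fun s hs => (hP s hs).ne')))

theorem phi0_smooth {J : Set ℝ} (hJ : IsOpen J) {F : ℝ → ℝ} (hF : ContDiffOn ℝ ∞ F J)
    (hP : ∀ s ∈ J, 0 < deriv F s)
    (hQ : ∀ s ∈ J, 0 < 1 + deriv (deriv F) s * (2 * s / deriv F s)) (k : ℕ) (a : ℝ) :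
    ContDiffOn ℝ ∞ (phi0 k a F) J :=
  (Dfun_smooth hJ hF hP k).rpow_const_of_ne fun s hs =>
    (mul_pos (pow_pos (hP s hs) k) (hQ s hs)).ne'

/-- The reduction of (AM). -/
theorem am_rad {Ω : Set (Fin n → ℝ)} (hΩ : IsOpen Ω) {J : Set ℝ} (hJ : IsOpen J)
    {S : Finset (Fin n)} {u : (Fin n → ℝ) → ℝ} {F : ℝ → ℝ} {f : Fin n → ℝ → ℝ}
    (hF : ContDiffOn ℝ ∞ F J) (hsJ : ∀ y ∈ Ω, sq S y ∈ J)
    (hu : ∀ y ∈ Ω, u y = F (sq S y) + ∑ l ∈ Sᶜ, f l (y l))
    (hP : ∀ s ∈ J, 0 < deriv F s)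
    (hQ : ∀ s ∈ J, 0 < 1 + deriv (deriv F) s * (2 * s / deriv F s))
    (hg : ∀ y ∈ Ω, ∀ l ∈ Sᶜ, 0 < deriv (deriv (f l)) (y l))
    {x : Fin n → ℝ} (hx : x ∈ Ω) (hAM : AffineMaximalAt u x) :
    T0 S.card (((n : ℝ) + 1) / ((n : ℝ) + 2)) F (sq S x)
      + ∑ l ∈ Sᶜ, T1 (((n : ℝ) + 1) / ((n : ℝ) + 2)) (f l) (x l) = 0 := by
  set a : ℝ := ((n : ℝ) + 1) / ((n : ℝ) + 2) with ha
  set k : ℕ := S.card with hk
  set φ : Fin n → ℝ → ℝ := fun l => phi1 a (f l) with hφ
  have hφ0s := phi0_smooth hJ hF hP hQ k a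
  have hφ0d : ∀ s ∈ J, DifferentiableAt ℝ (phi0 k a F) s := fun s hs =>
    (differentiableOn_of_smooth hφ0s s hs).differentiableAt (hJ.mem_nhds hs)
  have hφ0d' : ∀ s ∈ J, DifferentiableAt ℝ (deriv (phi0 k a F)) s := fun s hs =>
    (differentiableOn_of_smooth (contDiffOn_deriv hJ hφ0s) s hs).differentiableAt (hJ.mem_nhds hs)
  have hdne : ∀ y ∈ Ω, ∀ i, dvec S F f y i ≠ 0 := by
    intro y hy i
    by_cases hi : i ∈ S
    · simp only [dvec, if_pos hi]; exact (hP _ (hsJ y hy)).ne'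
    · simp only [dvec, if_neg hi]; exact (hg y hy i (Finset.mem_compl.2 hi)).ne'
  have hdet : ∀ y ∈ Ω, (hess u y).det
      = Dfun k F (sq S y) * ∏ l ∈ Sᶜ, deriv (deriv (f l)) (y l) := by
    intro y hy
    rw [hess_rad hΩ hJ hF hsJ hu hy, det_diagRank _ _ _ (hdne y hy), prod_dvec, sum_vvec_div]
    unfold Dfun
    ring
  have hDpos : ∀ s ∈ J, 0 < Dfun k F s := fun s hs => mul_pos (pow_pos (hP s hs) k) (hQ s hs)
  have hw : ∀ y ∈ Ω, wfun u y = phi0 k a F (sq S y) * ∏ l ∈ Sᶜ, φ l (y l) := by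
    intro y hy
    unfold wfun
    rw [hdet y hy, Real.mul_rpow (hDpos _ (hsJ y hy)).le
      (Finset.prod_nonneg fun l hl => (hg y hy l hl).le)]
    congr 1
    exact (Real.finsetProd_rpow _ _ (fun l hl => (hg y hy l hl).le) _).symm
  -- first derivatives
  have hw1S : ∀ j ∈ S, ∀ y ∈ Ω, pd j (wfun u) y
      = deriv (phi0 k a F) (sq S y) * y j * ∏ l ∈ Sᶜ, φ l (y l) := by
    intro j hj y hy
    rw [pd_congr_of_isOpen hΩ hw hy, pd_rad_mem hj _ _ _ (hφ0d _ (hsJ y hy))]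
  have hw1C : ∀ j ∈ Sᶜ, ∀ y ∈ Ω, pd j (wfun u) y
      = phi0 k a F (sq S y) * ∏ l ∈ Sᶜ, (Function.update φ j (deriv (φ j))) l (y l) := by
    intro j hj y hy
    rw [pd_congr_of_isOpen hΩ hw hy, pd_rad_not_mem (Finset.mem_compl.1 hj),
      prodc_update_erase (Finset.mem_compl.1 hj)]
  -- second derivatives
  set K : ℝ := ∏ l ∈ Sᶜ, φ l (x l) with hK
  set s : ℝ := sq S x with hs
  set A0 : ℝ := phi0 k a F s with hA0
  set A1 : ℝ := deriv (phi0 k a F) s with hA1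
  set A2 : ℝ := deriv (deriv (phi0 k a F)) s with hA2
  have hw2S : ∀ i ∈ S, ∀ j ∈ S, pd i (pd j (wfun u)) x
      = (A2 * x i * x j + (if i = j then A1 else 0)) * K := by
    intro i hi j hj
    rw [pd_congr_of_isOpen hΩ (hw1S j hj) hx, pd_rad_lin_mem hi _ _ _ (hφ0d' _ (hsJ x hx))]
  have hw2C : ∀ j ∈ Sᶜ, pd j (pd j (wfun u)) x
      = A0 * (deriv (deriv (φ j)) (x j) * ∏ l ∈ Sᶜ.erase j, φ l (x l)) := by
    intro j hj
    rw [pd_congr_of_isOpen hΩ (hw1C j hj) hx, pd_rad_not_mem (Finset.mem_compl.1 hj)]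
    congr 2
    · simp
    · refine Finset.prod_congr rfl fun l hl => ?_
      rw [Function.update_of_ne (Finset.ne_of_mem_erase hl)]
  -- positivity
  have hφpos : ∀ l ∈ Sᶜ, 0 < φ l (x l) := fun l hl => Real.rpow_pos_of_pos (hg x hx l hl) _
  have hKpos : 0 < K := Finset.prod_pos hφpos
  have hA0pos : 0 < A0 := Real.rpow_pos_of_pos (hDpos _ (hsJ x hx)) _
  set P : ℝ := deriv F s with hPdef
  set c : ℝ := deriv (deriv F) s with hc
  have hPpos : 0 < P := hP _ (hsJ x hx)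
  have hqpos : 0 < 1 + c * (2 * s / P) := hQ _ (hsJ x hx)
  set e : ℝ := c / (1 + c * (2 * s / P)) with he
  -- the equation
  have hdetne : (hess u x).det ≠ 0 := by
    rw [hdet x hx]
    exact (mul_pos (hDpos _ (hsJ x hx)) (Finset.prod_pos fun l hl => hg x hx l hl)).ne'
  have hinv : (hess u x)⁻¹ = Matrix.of fun i j =>
      (if i = j then (dvec S F f x i)⁻¹ else 0)
        - e * (vvec S x i / dvec S F f x i) * (vvec S x j / dvec S F f x j) := by
    rw [hess_rad hΩ hJ hF hsJ hu hx, inv_diagRank _ _ _ (hdne x hx)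
      (by rw [sum_vvec_div]; exact hqpos.ne'), sum_vvec_div]
  unfold AffineMaximalAt cof at hAM
  simp only [Matrix.smul_apply, smul_eq_mul, mul_assoc] at hAM
  simp only [← Finset.mul_sum] at hAM
  have hAM' := (mul_eq_zero.1 hAM).resolve_left hdetne
  rw [hinv] at hAM'
  simp only [Matrix.of_apply, sub_mul, Finset.sum_sub_distrib] at hAM'
  have hdS : ∀ i ∈ S, dvec S F f x i = P := fun i hi => by simp only [dvec, if_pos hi]; rfl
  have hvS : ∀ i ∈ S, vvec S x i = x i := fun i hi => by simp only [vvec, if_pos hi]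
  have hsum : ∑ i ∈ S, (x i) ^ 2 = 2 * s := sum_sq_eq S x
  -- the diagonal part
  have hT1 : ∑ i, ∑ j, (if i = j then (dvec S F f x i)⁻¹ else 0) * pd i (pd j (wfun u)) x
      = (2 * s * A2 + k * A1) / P * K + A0 * K * ∑ l ∈ Sᶜ, T1 a (f l) (x l) := by
    have h1 : ∀ i, ∑ j, (if i = j then (dvec S F f x i)⁻¹ else 0) * pd i (pd j (wfun u)) x
        = (dvec S F f x i)⁻¹ * pd i (pd i (wfun u)) x := by
      intro i
      simp only [ite_mul, zero_mul, Finset.sum_ite_eq, Finset.mem_univ, if_true]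
    simp only [h1]
    rw [← Finset.sum_add_sum_compl S]
    congr 1
    · have h2 : ∀ i ∈ S, (dvec S F f x i)⁻¹ * pd i (pd i (wfun u)) x
          = (A2 * K / P) * (x i) ^ 2 + A1 * K / P := by
        intro i hi
        rw [hw2S i hi i hi, hdS i hi]
        simp only [if_true]
        field_simp
      rw [Finset.sum_congr rfl h2, Finset.sum_add_distrib, ← Finset.mul_sum, hsum,
        Finset.sum_const, nsmul_eq_mul, ← hk]
      field_simp
    · rw [Finset.mul_sum]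
      refine Finset.sum_congr rfl fun l hl => ?_
      rw [hw2C l hl]
      simp only [dvec, if_neg (Finset.mem_compl.1 hl)]
      have hKl : K = φ l (x l) * ∏ m ∈ Sᶜ.erase l, φ m (x m) :=
        (Finset.mul_prod_erase _ _ hl).symm
      rw [hKl]
      unfold T1
      have h3 := (hg x hx l hl).ne'
      have h4 : phi1 a (f l) (x l) ≠ 0 := (hφpos l hl).ne'
      simp only [hφ]
      field_simp
  -- the rank one part
  have hT2 : ∑ i, ∑ j, e * (vvec S x i / dvec S F f x i) * (vvec S x j / dvec S F f x j)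
        * pd i (pd j (wfun u)) x
      = e / P ^ 2 * (4 * s ^ 2 * A2 + 2 * s * A1) * K := by
    have h1 : ∑ i, ∑ j, e * (vvec S x i / dvec S F f x i) * (vvec S x j / dvec S F f x j)
          * pd i (pd j (wfun u)) x
        = ∑ i ∈ S, ∑ j ∈ S, e * (vvec S x i / dvec S F f x i) * (vvec S x j / dvec S F f x j)
          * pd i (pd j (wfun u)) x := by
      symm
      rw [Finset.sum_subset (Finset.subset_univ S)]
      · refine Finset.sum_congr rfl fun i _ => ?_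
        apply Finset.sum_subset (Finset.subset_univ S)
        intro j _ hj
        simp [vvec, hj]
      · intro i _ hi
        simp [vvec, hi]
    rw [h1]
    have h2 : ∀ i ∈ S, ∀ j ∈ S, e * (vvec S x i / dvec S F f x i)
          * (vvec S x j / dvec S F f x j) * pd i (pd j (wfun u)) x
        = (e * A2 * K / P ^ 2) * ((x i) ^ 2 * (x j) ^ 2)
          + (if i = j then (e * A1 * K / P ^ 2) * (x i * x j) else 0) := by
      intro i hi j hj
      rw [hw2S i hi j hj, hdS i hi, hdS j hj, hvS i hi, hvS j hj]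
      by_cases hij : i = j
      · simp only [hij, if_true]; field_simp
      · simp only [hij, if_false]; field_simp; ring
    rw [Finset.sum_congr rfl fun i hi => Finset.sum_congr rfl fun j hj => h2 i hi j hj]
    simp only [Finset.sum_add_distrib]
    have h4 : ∑ i ∈ S, ∑ j ∈ S, (e * A2 * K / P ^ 2) * ((x i) ^ 2 * (x j) ^ 2)
        = (e * A2 * K / P ^ 2) * ((2 * s) * (2 * s)) := by
      rw [← hsum, Finset.sum_mul_sum, Finset.mul_sum]
      refine Finset.sum_congr rfl fun i _ => ?_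
      rw [Finset.mul_sum]
    rw [h4]
    have h3 : ∑ i ∈ S, ∑ j ∈ S, (if i = j then (e * A1 * K / P ^ 2) * (x i * x j) else 0)
        = (e * A1 * K / P ^ 2) * (2 * s) := by
      rw [← hsum, Finset.mul_sum]
      refine Finset.sum_congr rfl fun i hi => ?_
      rw [Finset.sum_ite_eq, if_pos hi]
      ring
    rw [h3]
    ring
  rw [hT1, hT2] at hAM'
  have hfinal : (T0 k a F s + ∑ l ∈ Sᶜ, T1 a (f l) (x l)) * (A0 * K) = 0 := by
    rw [← hAM']
    have hT0 : T0 k a F s = ((2 * s * A2 + k * A1) / P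
        - e / P ^ 2 * (4 * s ^ 2 * A2 + 2 * s * A1)) / A0 := rfl
    rw [hT0]
    field_simp
    ring
  exact (mul_eq_zero.1 hfinal).resolve_right (mul_pos hA0pos hKpos).ne'

end Vale.Agent.P252
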