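import Vale.Agent.P252.Rad3
import Vale.Agent.P252.OdeRad2

/-!
# P252: rigidity of the blocks
-/

namespace Vale.Agent.P252

open Matrix Filter Topology Set
open scoped ContDiff

theorem hasDerivAt_comp_half_sq {G : ℝ → ℝ} {r : ℝ} (hG : DifferentiableAt ℝ G (r ^ 2 / 2)) :
    HasDerivAt (fun r : ℝ => G (r ^ 2 / 2)) (deriv G (r ^ 2 / 2) * r) r := by
  have h1 : HasDerivAt (fun r : ℝ => r ^ 2 / 2) r r := by
    have h2 : HasDerivAt (fun r : ℝ => r ^ 2) (2 * r) r := by simpa using hasDerivAt_pow 2 r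
    have h3 := h2.div_const 2
    have h4 : 2 * r / 2 = r := by ring
    rwa [h4] at h3
  exact hG.hasDerivAt.comp r h1

theorem nat_mul_pow_pred (m : ℕ) {p : ℝ} (hp : p ≠ 0) :
    (m : ℝ) * p ^ (m - 1) = (m : ℝ) * p ^ m / p := by
  cases m with
  | zero => simp
  | succ k =>
    simp only [Nat.add_sub_cancel]
    field_simp
    ring

/-- Rigidity of the radial block. -/
theorem radial_block {m : ℕ} {a c0 : ℝ} (ha : (m : ℝ) / ((m : ℝ) + 1) < a) (ha1 : a < 1)
    {J : Set ℝ} (hJ : IsOpen J) (hJ0 : ∀ s, 0 ≤ s → s ∈ J) {F : ℝ → ℝ}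
    (hF : ContDiffOn ℝ ∞ F J) (hP : ∀ s ∈ J, 0 < deriv F s)
    (hQ : ∀ s ∈ J, 0 < 1 + deriv (deriv F) s * (2 * s / deriv F s))
    (hT : ∀ s, 0 ≤ s → T0 (m + 1) a F s = c0) (hc : c0 ≤ 0) :
    c0 = 0 ∧ ∀ s, 0 ≤ s → F s = F 0 + deriv F (1 / 2) * s := by
  have ha0 : 0 < a := lt_of_le_of_lt (by positivity) ha
  have hsr : ∀ r : ℝ, r ^ 2 / 2 ∈ J := fun r => hJ0 _ (by positivity)
  have hFd : ∀ s ∈ J, DifferentiableAt ℝ F s := fun s hs =>
    (differentiableOn_of_smooth hF s hs).differentiableAt (hJ.mem_nhds hs)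
  have hF'd : ∀ s ∈ J, DifferentiableAt ℝ (deriv F) s := fun s hs =>
    (differentiableOn_of_smooth (contDiffOn_deriv hJ hF) s hs).differentiableAt (hJ.mem_nhds hs)
  have hφ0s := phi0_smooth hJ hF hP hQ (m + 1) a
  have hφ0d : ∀ s ∈ J, DifferentiableAt ℝ (phi0 (m + 1) a F) s := fun s hs =>
    (differentiableOn_of_smooth hφ0s s hs).differentiableAt (hJ.mem_nhds hs)
  have hφ0d' : ∀ s ∈ J, DifferentiableAt ℝ (deriv (phi0 (m + 1) a F)) s := fun s hs =>
    (differentiableOn_of_smooth (contDiffOn_deriv hJ hφ0s) s hs).differentiableAt (hJ.mem_nhds hs)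
  set p : ℝ → ℝ := fun r => r * deriv F (r ^ 2 / 2) with hp
  set D : ℝ → ℝ := fun r => Dfun (m + 1) F (r ^ 2 / 2) with hD
  set φ : ℝ → ℝ := fun r => phi0 (m + 1) a F (r ^ 2 / 2) with hφ
  set φ' : ℝ → ℝ := fun r => r * deriv (phi0 (m + 1) a F) (r ^ 2 / 2) with hφ'
  have hDpos : ∀ r, 0 < D r := fun r => mul_pos (pow_pos (hP _ (hsr r)) _) (hQ _ (hsr r))
  have hpd : ∀ r, HasDerivAt p
      (1 * deriv F (r ^ 2 / 2) + r * (deriv (deriv F) (r ^ 2 / 2) * r)) r := fun r =>
    (hasDerivAt_id r).mul (hasDerivAt_comp_half_sq (hF'd _ (hsr r)))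
  have hφ'd : ∀ r, HasDerivAt φ' (1 * deriv (phi0 (m + 1) a F) (r ^ 2 / 2)
      + r * (deriv (deriv (phi0 (m + 1) a F)) (r ^ 2 / 2) * r)) r := fun r =>
    (hasDerivAt_id r).mul (hasDerivAt_comp_half_sq (hφ0d' _ (hsr r)))
  have hppos : ∀ r, 0 < r → 0 < p r := fun r hr => mul_pos hr (hP _ (hsr r))
  have h1 : ∀ r, 0 < r → φ r = (D r) ^ (-a) := fun r _ => rfl
  have h2 : ∀ r, 0 < r → HasDerivAt φ (φ' r) r := fun r _ => by
    have := hasDerivAt_comp_half_sq (hφ0d _ (hsr r))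
    rwa [mul_comm] at this
  have h3 : ∀ r, 0 < r →
      HasDerivAt (fun r => p r ^ (m + 1)) (((m : ℝ) + 1) * r ^ m * D r) r := by
    intro r hr
    have h := (hpd r).pow (m + 1)
    have hPne := (hP _ (hsr r)).ne'
    have e : ((m + 1 : ℕ) : ℝ) * p r ^ (m + 1 - 1)
        * (1 * deriv F (r ^ 2 / 2) + r * (deriv (deriv F) (r ^ 2 / 2) * r))
        = ((m : ℝ) + 1) * r ^ m * D r := by
      simp only [hp, hD, Dfun, Nat.add_sub_cancel]
      push_cast
      field_simp
      ring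
    rwa [e] at h
  have h4 : ∀ r, 0 < r →
      HasDerivAt (fun r => p r ^ m * φ' r) (c0 * r ^ m * (D r) ^ (1 - a)) r := by
    intro r hr
    have h : HasDerivAt (fun r => p r ^ m * φ' r) ((m : ℝ) * p r ^ (m - 1)
          * (1 * deriv F (r ^ 2 / 2) + r * (deriv (deriv F) (r ^ 2 / 2) * r)) * φ' r
        + p r ^ m * (1 * deriv (phi0 (m + 1) a F) (r ^ 2 / 2)
          + r * (deriv (deriv (phi0 (m + 1) a F)) (r ^ 2 / 2) * r))) r :=
      ((hpd r).pow m).mul (hφ'd r)
    have hPpos := hP _ (hsr r)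
    have hqpos := hQ _ (hsr r)
    have hTr := hT (r ^ 2 / 2) (by positivity)
    have hA0pos : 0 < phi0 (m + 1) a F (r ^ 2 / 2) := Real.rpow_pos_of_pos (hDpos r) _
    have hDa : (D r) ^ (1 - a) = D r * phi0 (m + 1) a F (r ^ 2 / 2) := by
      have : (1 : ℝ) - a = 1 + -a := by ring
      rw [this, Real.rpow_add (hDpos r), Real.rpow_one]
      rfl
    have e : (m : ℝ) * p r ^ (m - 1)
          * (1 * deriv F (r ^ 2 / 2) + r * (deriv (deriv F) (r ^ 2 / 2) * r)) * φ' r
        + p r ^ m * (1 * deriv (phi0 (m + 1) a F) (r ^ 2 / 2)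
          + r * (deriv (deriv (phi0 (m + 1) a F)) (r ^ 2 / 2) * r))
        = c0 * r ^ m * (D r) ^ (1 - a) := by
      rw [nat_mul_pow_pred m (hppos r hr).ne', hDa, ← hTr]
      simp only [hp, hD, hφ', Dfun, T0]
      set P := deriv F (r ^ 2 / 2)
      set c := deriv (deriv F) (r ^ 2 / 2)
      set A0 := phi0 (m + 1) a F (r ^ 2 / 2)
      set A1 := deriv (phi0 (m + 1) a F) (r ^ 2 / 2)
      set A2 := deriv (deriv (phi0 (m + 1) a F)) (r ^ 2 / 2)
      have hq' : P + c * r ^ 2 ≠ 0 := by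
        have h5 : 1 + c * (2 * (r ^ 2 / 2) / P) = (P + c * r ^ 2) / P := by
          field_simp
        rw [h5] at hqpos
        intro h6
        rw [h6] at hqpos
        simp at hqpos
      have h5 : 1 + c * (2 * (r ^ 2 / 2) / P) = (P + c * r ^ 2) / P := by
        field_simp
      rw [h5]
      have hq'' : P + r ^ 2 * c ≠ 0 := by rwa [mul_comm] at hq'
      push_cast
      field_simp
      ring
    rwa [e] at h
  have h5 : ContinuousWithinAt (fun r => p r ^ (m + 1)) (Ici 0) 0 :=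
    ((hpd 0).continuousAt.pow (m + 1)).continuousWithinAt
  have h6 : p 0 = 0 := by simp [hp]
  have h7 : ContinuousWithinAt (fun r => p r ^ m * φ' r) (Ici 0) 0 :=
    (((hpd 0).continuousAt.pow m).mul (hφ'd 0).continuousAt).continuousWithinAt
  have h8 : p 0 ^ m * φ' 0 = 0 := by simp [hφ']
  have hc0 : c0 = 0 := by
    rcases eq_or_lt_of_le hc with h | h
    · exact h
    · exact (radial_ode_contra ha ha1 h hppos (fun r _ => hDpos r) h1 h2 h3 h4 h5 h6 h7 h8).elim
  refine ⟨hc0, ?_⟩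
  have h4' : ∀ r, 0 < r → HasDerivAt (fun r => p r ^ m * φ' r) 0 r := by
    intro r hr
    have := h4 r hr
    rwa [hc0, zero_mul, zero_mul] at this
  have hlin := radial_ode_zero ha0 hppos (fun r _ => hDpos r) h1 h2 h3 h4' h5 h6 h7 h8
  have hPconst : ∀ s, 0 < s → deriv F s = deriv F (1 / 2) := by
    intro s hs
    have hr : 0 < Real.sqrt (2 * s) := Real.sqrt_pos.2 (by linarith)
    have h := hlin _ hr
    simp only [hp] at h
    have hsq : Real.sqrt (2 * s) ^ 2 / 2 = s := by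
      rw [Real.sq_sqrt (by linarith)]; ring
    rw [hsq] at h
    have h9 : (1 : ℝ) ^ 2 / 2 = 1 / 2 := by norm_num
    rw [h9, one_mul, mul_comm] at h
    exact mul_right_cancel₀ hr.ne' h
  intro s hs
  have h := eq_of_hasDerivAt_zero (f := fun t => F t - deriv F (1 / 2) * t) hs
    (by
      intro t ht
      apply ContinuousAt.continuousWithinAt
      exact ((hFd t (hJ0 t ht.1)).continuousAt).sub (by fun_prop))
    (by
      intro t ht
      have h9 := (hFd t (hJ0 t ht.1.le)).hasDerivAt.sub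
        ((hasDerivAt_id t).const_mul (deriv F (1 / 2)))
      have h10 : deriv F t - deriv F (1 / 2) * 1 = 0 := by rw [hPconst t ht.1]; ring
      rwa [h10] at h9)
  simp only [mul_zero, sub_zero] at h
  linarith

/-- Rigidity of a one-dimensional block. -/
theorem line_block {a c : ℝ} (ha0 : 0 < a) {f : ℝ → ℝ} (hf : ContDiff ℝ ∞ f)
    (hg : ∀ t, 0 < deriv (deriv f) t) (hT : ∀ t, T1 a f t = c) (hc : c ≤ 0) :
    c = 0 ∧ ∀ t, f t = deriv (deriv f) 0 * t ^ 2 / 2 + deriv f 0 * t + f 0 := by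
  have hfs : ContDiffOn ℝ ∞ f univ := hf.contDiffOn
  have hf's := contDiffOn_deriv isOpen_univ hfs
  have hgs := contDiffOn_deriv isOpen_univ hf's
  have hφs : ContDiffOn ℝ ∞ (phi1 a f) univ := hgs.rpow_const_of_ne fun t _ => (hg t).ne'
  have hφ's := contDiffOn_deriv isOpen_univ hφs
  have hφpos : ∀ t, 0 < phi1 a f t := fun t => Real.rpow_pos_of_pos (hg t) _
  have hode : ∀ t, deriv (deriv (phi1 a f)) t = c * (deriv (deriv f) t * phi1 a f t) := by
    intro t
    rw [← hT t]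
    unfold T1
    rw [div_mul_cancel₀ _ (mul_pos (hg t) (hφpos t)).ne']
  have h1 : Differentiable ℝ (phi1 a f) :=
    fun t => (differentiableOn_of_smooth hφs t (mem_univ t)).differentiableAt univ_mem
  have h2 : Differentiable ℝ (deriv (phi1 a f)) :=
    fun t => (differentiableOn_of_smooth hφ's t (mem_univ t)).differentiableAt univ_mem
  have h3 : ∀ t, deriv (deriv (phi1 a f)) t ≤ 0 := fun t => by
    rw [hode t]
    exact mul_nonpos_of_nonpos_of_nonneg hc (mul_pos (hg t) (hφpos t)).le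
  have h4 := deriv_eq_zero_of_concave_pos h1 h2 h3 hφpos
  have h5 : deriv (phi1 a f) = fun _ => 0 := funext h4
  have hc0 : c = 0 := by
    have h6 := hode 0
    rw [h5] at h6
    simp only [deriv_const] at h6
    exact (mul_eq_zero.1 h6.symm).resolve_right (mul_pos (hg 0) (hφpos 0)).ne'
  refine ⟨hc0, fun t => ?_⟩
  have hgconst : ∀ t, deriv (deriv f) t = deriv (deriv f) 0 := by
    intro t
    have h7 : phi1 a f t = phi1 a f 0 := is_const_of_deriv_eq_zero h1 h4 t 0
    have h8 : ∀ s, deriv (deriv f) s = (phi1 a f s) ^ (-(1 / a)) := fun s => by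
      unfold phi1
      rw [← Real.rpow_mul (hg s).le]
      have : -a * -(1 / a) = 1 := by field_simp
      rw [this, Real.rpow_one]
    rw [h8 t, h8 0, h7]
  exact quadratic_of_deriv2_const
    (fun t => (differentiableOn_of_smooth hfs t (mem_univ t)).differentiableAt univ_mem)
    (fun t => (differentiableOn_of_smooth hf's t (mem_univ t)).differentiableAt univ_mem)
    hgconst t

end Vale.Agent.P252
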