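import Vale.Agent.P252.Rad4

/-!
# P252: entire solutions of the form `F (|x_S|^2/2) + ∑_{l ∉ S} f_l (x_l)`
-/

namespace Vale.Agent.P252

open Matrix Filter Topology Set
open scoped ContDiff

variable {n : ℕ}

theorem sq_zero (S : Finset (Fin n)) : sq S (0 : Fin n → ℝ) = 0 := by simp [sq]

theorem sq_update_not_mem {S : Finset (Fin n)} {l : Fin n} (hl : l ∉ S) (t : ℝ) :
    sq S (Function.update (0 : Fin n → ℝ) l t) = 0 := by
  unfold sq
  rw [Finset.sum_eq_zero, mul_zero]
  intro i hi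
  have hne : i ≠ l := fun h => hl (h ▸ hi)
  rw [Function.update_of_ne hne]; simp

theorem sq_update_mem {S : Finset (Fin n)} {i : Fin n} (hi : i ∈ S) (t : ℝ) :
    sq S (Function.update (0 : Fin n → ℝ) i t) = t ^ 2 / 2 := by
  unfold sq
  rw [Finset.sum_eq_single i]
  · simp; ring
  · intro j _ hj
    rw [Function.update_of_ne hj]; simp
  · intro h; exact absurd hi h

theorem sumc_update_not_mem {S : Finset (Fin n)} {l : Fin n} (hl : l ∉ S) (ψ : Fin n → ℝ → ℝ)
    (t : ℝ) :
    ∑ j ∈ Sᶜ, ψ j (Function.update (0 : Fin n → ℝ) l t j)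
      = ψ l t + ∑ j ∈ Sᶜ.erase l, ψ j 0 := by
  rw [← Finset.add_sum_erase _ _ (Finset.mem_compl.2 hl)]
  congr 1
  · simp
  · refine Finset.sum_congr rfl fun j hj => ?_
    rw [Function.update_of_ne (Finset.ne_of_mem_erase hj)]; simp

theorem sumc_update_mem {S : Finset (Fin n)} {i : Fin n} (hi : i ∈ S) (ψ : Fin n → ℝ → ℝ)
    (t : ℝ) :
    ∑ j ∈ Sᶜ, ψ j (Function.update (0 : Fin n → ℝ) i t j) = ∑ j ∈ Sᶜ, ψ j 0 := by
  refine Finset.sum_congr rfl fun j hj => ?_
  have hne : j ≠ i := fun h => (Finset.mem_compl.1 hj) (h ▸ hi)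
  rw [Function.update_of_ne hne]; simp

theorem expo_gt {S : Finset (Fin n)} {m : ℕ} (hm : S.card = m + 1) :
    (m : ℝ) / ((m : ℝ) + 1) < ((n : ℝ) + 1) / ((n : ℝ) + 2) := by
  have h1 : S.card ≤ n := by simpa using Finset.card_le_univ S
  have h2 : (m : ℝ) + 1 ≤ n := by
    have : m + 1 ≤ n := hm ▸ h1
    exact_mod_cast this
  rw [div_lt_div_iff₀ (by positivity) (by positivity)]
  nlinarith

/-- The core statement: the profile `F` is assumed to satisfy the positivity conditions on
`[0, ∞)`. -/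
theorem rad_core (u : (Fin n → ℝ) → ℝ) (hu : ContDiff ℝ ∞ u)
    (hpd : ∀ x, (hess u x).PosDef) (hAM : ∀ x, AffineMaximalAt u x)
    (S : Finset (Fin n)) (F : ℝ → ℝ) (hF : ContDiff ℝ ∞ F) (f : Fin n → ℝ → ℝ)
    (hsep : ∀ x, u x = F (sq S x) + ∑ l ∈ Sᶜ, f l (x l))
    (hPQ : ∀ s, 0 ≤ s → 0 < deriv F s ∧ 0 < deriv F s + 2 * s * deriv (deriv F) s) :
    ∃ (A : Matrix (Fin n) (Fin n) ℝ) (b : Fin n → ℝ) (c : ℝ), A.PosDef ∧
      ∀ x, u x = 1 / 2 * (x ⬝ᵥ (A *ᵥ x)) + b ⬝ᵥ x + c := by
  set a : ℝ := ((n : ℝ) + 1) / ((n : ℝ) + 2) with ha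
  have ha0 : 0 < a := by positivity
  have ha1 : a < 1 := by
    rw [ha, div_lt_one (by positivity)]; linarith
  have hFs : ContDiffOn ℝ ∞ F univ := hF.contDiffOn
  have hhess : ∀ x, hess u x
      = diagRank (dvec S F f x) (vvec S x) (deriv (deriv F) (sq S x)) := fun x =>
    hess_rad isOpen_univ isOpen_univ hFs (fun _ _ => mem_univ _) (fun y _ => hsep y) (mem_univ x)
  -- positivity of the one-dimensional blocks
  have hg : ∀ l ∈ Sᶜ, ∀ t, 0 < deriv (deriv (f l)) t := by
    intro l hl t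
    have hl' := Finset.mem_compl.1 hl
    have h := (hpd (Function.update 0 l t)).diag_pos (i := l)
    rw [hhess, diagRank_apply] at h
    simpa [dvec, vvec, hl'] using h
  -- smoothness of the one-dimensional blocks
  have hfs : ∀ l ∈ Sᶜ, ContDiff ℝ ∞ (f l) := by
    intro l hl
    have hl' := Finset.mem_compl.1 hl
    have h1 : f l = fun t => u (Function.update 0 l t) - (F 0 + ∑ j ∈ Sᶜ.erase l, f j 0) := by
      funext t
      rw [hsep, sq_update_not_mem hl', sumc_update_not_mem hl']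
      ring
    rw [h1]
    exact (hu.comp (contDiff_update ∞ 0 l)).sub contDiff_const
  -- the open set J
  have hPc : Continuous (deriv F) := (hF.continuous_deriv (by simp))
  have hF' : ContDiff ℝ ∞ (deriv F) := by
    have := contDiffOn_deriv isOpen_univ hFs
    rwa [contDiffOn_univ] at this
  have hcc : Continuous (deriv (deriv F)) := (hF'.continuous_deriv (by simp))
  set J : Set ℝ := {s | 0 < deriv F s} ∩
    (fun s => 1 + deriv (deriv F) s * (2 * s / deriv F s)) ⁻¹' (Ioi 0) with hJdef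
  have hJ : IsOpen J := by
    apply ContinuousOn.isOpen_inter_preimage _ (isOpen_lt continuous_const hPc) isOpen_Ioi
    apply ContinuousOn.add continuousOn_const
    apply ContinuousOn.mul hcc.continuousOn
    apply ContinuousOn.div (by fun_prop) hPc.continuousOn
    intro s hs
    exact (ne_of_gt hs)
  have hJ0 : ∀ s, 0 ≤ s → s ∈ J := by
    intro s hs
    obtain ⟨h1, h2⟩ := hPQ s hs
    refine ⟨h1, ?_⟩
    simp only [mem_preimage, mem_Ioi]
    have : 1 + deriv (deriv F) s * (2 * s / deriv F s)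
        = (deriv F s + 2 * s * deriv (deriv F) s) / deriv F s := by
      field_simp
    rw [this]
    exact div_pos h2 h1
  have hsq0 : ∀ x, 0 ≤ sq S x := fun x => by
    unfold sq
    exact mul_nonneg (by norm_num) (Finset.sum_nonneg fun i _ => sq_nonneg _)
  -- the separated identity
  have hid : ∀ x, T0 S.card a F (sq S x) + ∑ l ∈ Sᶜ, T1 a (f l) (x l) = 0 := fun x =>
    am_rad isOpen_univ hJ (hFs.mono (subset_univ J)) (fun y _ => hJ0 _ (hsq0 y))
      (fun y _ => hsep y) (fun s hs => hs.1) (fun s hs => hs.2) (fun y _ l hl => hg l hl (y l))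
      (mem_univ x) (hAM x)
  have hid0 := hid 0
  rw [sq_zero] at hid0
  simp only [Pi.zero_apply] at hid0
  have hTl : ∀ l ∈ Sᶜ, ∀ t, T1 a (f l) t = T1 a (f l) 0 := by
    intro l hl t
    have hl' := Finset.mem_compl.1 hl
    have h1 := hid (Function.update 0 l t)
    rw [sq_update_not_mem hl', sumc_update_not_mem hl' (fun j => T1 a (f j))] at h1
    rw [← Finset.add_sum_erase _ _ hl] at hid0
    linarith
  have hT0 : ∀ i ∈ S, ∀ s, 0 ≤ s → T0 S.card a F s = T0 S.card a F 0 := by
    intro i hi s hs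
    have h1 := hid (Function.update 0 i (Real.sqrt (2 * s)))
    rw [sq_update_mem hi, sumc_update_mem hi (fun j => T1 a (f j)),
      Real.sq_sqrt (by linarith)] at h1
    have h2 : 2 * s / 2 = s := by ring
    rw [h2] at h1
    linarith
  -- signs
  have hcl : ∀ l ∈ Sᶜ, 0 ≤ T1 a (f l) 0 := by
    intro l hl
    by_contra h
    have h' : T1 a (f l) 0 < 0 := not_le.1 h
    have := (line_block ha0 (hfs l hl) (hg l hl) (hTl l hl) h'.le).1
    linarith
  have hc0 : 0 ≤ T0 S.card a F 0 := by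
    rcases S.eq_empty_or_nonempty with hS | ⟨i, hi⟩
    · rw [hS]; simp [T0]
    · by_contra h
      have h' : T0 S.card a F 0 < 0 := not_le.1 h
      obtain ⟨m, hm⟩ : ∃ m, S.card = m + 1 :=
        Nat.exists_eq_succ_of_ne_zero (Finset.card_pos.2 ⟨i, hi⟩).ne'
      have hT := hT0 i hi
      rw [hm] at hT h'
      have := (radial_block (expo_gt hm) ha1 hJ hJ0 (hFs.mono (subset_univ J))
        (fun s hs => hs.1) (fun s hs => hs.2) hT h'.le).1
      linarith
  have hsum0 : ∑ l ∈ Sᶜ, T1 a (f l) 0 = 0 := by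
    have := Finset.sum_nonneg hcl
    linarith
  have hcl0 : ∀ l ∈ Sᶜ, T1 a (f l) 0 = 0 := (Finset.sum_eq_zero_iff_of_nonneg hcl).1 hsum0
  have hc00 : T0 S.card a F 0 = 0 := by linarith
  -- rigidity
  set β : ℝ := deriv F (1 / 2) with hβ
  have hβpos : 0 < β := (hPQ (1 / 2) (by norm_num)).1
  have hFlin : ∀ x, F (sq S x) = F 0 + β * sq S x := by
    intro x
    rcases S.eq_empty_or_nonempty with hS | ⟨i, hi⟩
    · have : sq S x = 0 := by rw [hS]; simp [sq]
      rw [this]; ring
    · obtain ⟨m, hm⟩ : ∃ m, S.card = m + 1 :=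
        Nat.exists_eq_succ_of_ne_zero (Finset.card_pos.2 ⟨i, hi⟩).ne'
      have hT := hT0 i hi
      rw [hm] at hT hc00
      exact (radial_block (expo_gt hm) ha1 hJ hJ0 (hFs.mono (subset_univ J))
        (fun s hs => hs.1) (fun s hs => hs.2) hT hc00.le).2 _ (hsq0 x)
  have hfq : ∀ l ∈ Sᶜ, ∀ t, f l t
      = deriv (deriv (f l)) 0 * t ^ 2 / 2 + deriv (f l) 0 * t + f l 0 := fun l hl =>
    (line_block ha0 (hfs l hl) (hg l hl) (hTl l hl) (hcl0 l hl).le).2
  refine ⟨Matrix.diagonal (fun i => if i ∈ S then β else deriv (deriv (f i)) 0),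
    fun i => if i ∈ S then 0 else deriv (f i) 0, F 0 + ∑ l ∈ Sᶜ, f l 0, ?_, ?_⟩
  · apply Matrix.PosDef.diagonal
    intro i
    by_cases hi : i ∈ S
    · simp only [if_pos hi]; exact hβpos
    · simp only [if_neg hi]; exact hg i (Finset.mem_compl.2 hi) 0
  · intro x
    rw [hsep x, hFlin x]
    simp only [dotProduct, Matrix.mulVec_diagonal]
    rw [← Finset.sum_add_sum_compl S (fun i => x i * ((if i ∈ S then β else
      deriv (deriv (f i)) 0) * x i)), ← Finset.sum_add_sum_compl S (fun i =>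
      (if i ∈ S then 0 else deriv (f i) 0) * x i)]
    have e1 : ∑ i ∈ S, x i * ((if i ∈ S then β else deriv (deriv (f i)) 0) * x i)
        = β * (2 * sq S x) := by
      rw [← sum_sq_eq, Finset.mul_sum]
      refine Finset.sum_congr rfl fun i hi => ?_
      rw [if_pos hi]; ring
    have e2 : ∑ i ∈ S, (if i ∈ S then 0 else deriv (f i) 0) * x i = 0 := by
      apply Finset.sum_eq_zero
      intro i hi
      rw [if_pos hi, zero_mul]
    have e3 : ∑ i ∈ Sᶜ, x i * ((if i ∈ S then β else deriv (deriv (f i)) 0) * x i)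
        = ∑ i ∈ Sᶜ, deriv (deriv (f i)) 0 * (x i) ^ 2 := by
      refine Finset.sum_congr rfl fun i hi => ?_
      rw [if_neg (Finset.mem_compl.1 hi)]; ring
    have e4 : ∑ i ∈ Sᶜ, (if i ∈ S then 0 else deriv (f i) 0) * x i
        = ∑ i ∈ Sᶜ, deriv (f i) 0 * x i := by
      refine Finset.sum_congr rfl fun i hi => ?_
      rw [if_neg (Finset.mem_compl.1 hi)]
    rw [e1, e2, e3, e4, Finset.sum_congr rfl (fun l hl => hfq l hl (x l))]
    simp only [Finset.sum_add_distrib, mul_add, Finset.mul_sum]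
    have e5 : ∑ i ∈ Sᶜ, deriv (deriv (f i)) 0 * (x i) ^ 2 / 2
        = ∑ i ∈ Sᶜ, 1 / 2 * (deriv (deriv (f i)) 0 * (x i) ^ 2) := by
      refine Finset.sum_congr rfl fun i _ => ?_
      ring
    rw [e5]
    ring

end Vale.Agent.P252

namespace Vale.Agent.P252

open Matrix Filter Topology Set
open scoped ContDiff

variable {n : ℕ}

/-- Entire solutions of the form `F (|x_S|^2/2) + ∑_{l ∉ S} f_l (x_l)` are quadratic. -/
theorem rad_entire (u : (Fin n → ℝ) → ℝ) (hu : ContDiff ℝ ∞ u)
    (hpd : ∀ x, (hess u x).PosDef) (hAM : ∀ x, AffineMaximalAt u x)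
    (S : Finset (Fin n)) (F : ℝ → ℝ) (hF : ContDiff ℝ ∞ F) (f : Fin n → ℝ → ℝ)
    (hsep : ∀ x, u x = F (sq S x) + ∑ l ∈ Sᶜ, f l (x l)) :
    ∃ (A : Matrix (Fin n) (Fin n) ℝ) (b : Fin n → ℝ) (c : ℝ), A.PosDef ∧
      ∀ x, u x = 1 / 2 * (x ⬝ᵥ (A *ᵥ x)) + b ⬝ᵥ x + c := by
  rcases S.eq_empty_or_nonempty with hS | ⟨i, hi⟩
  · -- no radial block: replace the profile by an affine one
    have hd1 : deriv (fun s : ℝ => F 0 + s) = fun _ => 1 := by
      funext s
      rw [deriv_const_add]; simp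
    apply rad_core u hu hpd hAM S (fun s => F 0 + s) (by fun_prop) f
    · intro x
      have : sq S x = 0 := by rw [hS]; simp [sq]
      rw [hsep x, this]; simp
    · intro s hs
      rw [hd1]
      simp
  · apply rad_core u hu hpd hAM S F hF f hsep
    have hFs : ContDiffOn ℝ ∞ F univ := hF.contDiffOn
    have hQ : ∀ s, 0 ≤ s → 0 < deriv F s + 2 * s * deriv (deriv F) s := by
      intro s hs
      have h := (hpd (Function.update 0 i (Real.sqrt (2 * s)))).diag_pos (i := i)
      rw [hess_rad isOpen_univ isOpen_univ hFs (fun _ _ => mem_univ _) (fun y _ => hsep y)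
        (mem_univ _), diagRank_apply, sq_update_mem hi, Real.sq_sqrt (by linarith)] at h
      have h2 : 2 * s / 2 = s := by ring
      simp only [dvec, vvec, if_pos hi, if_true, Function.update_self, sq_update_mem hi,
        Real.sq_sqrt (show (0 : ℝ) ≤ 2 * s by linarith), h2] at h
      have h3 : deriv (deriv F) s * Real.sqrt (2 * s) * Real.sqrt (2 * s)
          = 2 * s * deriv (deriv F) s := by
        rw [mul_assoc, Real.mul_self_sqrt (by linarith)]; ring
      rw [h3] at h
      exact h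
    have hF'd : Differentiable ℝ (deriv F) := by
      have := contDiffOn_deriv isOpen_univ hFs
      rw [contDiffOn_univ] at this
      exact this.differentiable (by simp)
    have hpd' : ∀ r : ℝ, HasDerivAt (fun r : ℝ => r * deriv F (r ^ 2 / 2))
        (1 * deriv F (r ^ 2 / 2) + r * (deriv (deriv F) (r ^ 2 / 2) * r)) r := fun r =>
      (hasDerivAt_id r).mul (hasDerivAt_comp_half_sq (hF'd _))
    have hmono : StrictMono (fun r : ℝ => r * deriv F (r ^ 2 / 2)) := by
      apply strictMono_of_deriv_pos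
      intro r
      rw [(hpd' r).deriv]
      have := hQ (r ^ 2 / 2) (by positivity)
      nlinarith
    intro s hs
    refine ⟨?_, hQ s hs⟩
    rcases eq_or_lt_of_le hs with h0 | h0
    · have := hQ 0 le_rfl
      rw [← h0]
      simpa using this
    · have hr : 0 < Real.sqrt (2 * s) := Real.sqrt_pos.2 (by linarith)
      have h := hmono hr
      simp only [zero_mul] at h
      have hsq : Real.sqrt (2 * s) ^ 2 / 2 = s := by
        rw [Real.sq_sqrt (by linarith)]; ring
      rw [hsq] at h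
      exact (pos_iff_pos_of_mul_pos h).1 hr

end Vale.Agent.P252
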