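import Vale.Agent.P252.Sep
import Vale.Agent.P252.Ode2

/-!
# P252: the affine Bernstein problem for additively separable functions
-/

namespace Vale.Agent.P252

open Set Filter Topology Matrix
open scoped ContDiff

variable {n : ℕ}

theorem expo_bounds (hn : 1 ≤ n) :
    1 / 2 < ((n : ℝ) + 1) / ((n : ℝ) + 2) ∧ ((n : ℝ) + 1) / ((n : ℝ) + 2) < 1 := by
  have h1 : (1 : ℝ) ≤ n := by exact_mod_cast hn
  constructor
  · rw [div_lt_div_iff₀ (by norm_num) (by linarith)]; linarith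
  · rw [div_lt_one (by linarith)]; linarith

theorem sum_update (f : Fin n → ℝ → ℝ) (x : Fin n → ℝ) (j : Fin n) (t : ℝ) :
    ∑ l, f l (Function.update x j t l) = f j t + ∑ l ∈ Finset.univ.erase j, f l (x l) := by
  rw [← Finset.add_sum_erase _ _ (Finset.mem_univ j)]
  congr 1
  · simp
  · refine Finset.sum_congr rfl fun l hl => ?_
    rw [Function.update_of_ne (Finset.ne_of_mem_erase hl)]

/-- The hypotheses, bundled. -/
structure SepData (Ω : Set (Fin n → ℝ)) (u : (Fin n → ℝ) → ℝ) (f : Fin n → ℝ → ℝ) : Prop where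
  hΩo : IsOpen Ω
  hΩc : Convex ℝ Ω
  hΩn : Ω.Nonempty
  hu : ContDiffOn ℝ ∞ u Ω
  hpd : ∀ x ∈ Ω, (hess u x).PosDef
  hAM : ∀ x ∈ Ω, AffineMaximalAt u x
  hcl : IsClosed (graphOn Ω u)
  hsep : ∀ x ∈ Ω, u x = ∑ j, f j (x j)

namespace SepData

variable {Ω : Set (Fin n → ℝ)} {u : (Fin n → ℝ) → ℝ} {f : Fin n → ℝ → ℝ}

/-- The projection of the domain to the `j`-th axis. -/
def I (_ : SepData Ω u f) (j : Fin n) : Set ℝ := (fun x : Fin n → ℝ => x j) '' Ω

theorem isOpen_I (D : SepData Ω u f) (j : Fin n) : IsOpen (D.I j) :=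
  (isOpenMap_eval j) Ω D.hΩo

theorem convex_I (D : SepData Ω u f) (j : Fin n) : Convex ℝ (D.I j) :=
  D.hΩc.is_linear_image (f := fun x : Fin n → ℝ => x j) ⟨fun _ _ => rfl, fun _ _ => rfl⟩

theorem mem_I (D : SepData Ω u f) {x : Fin n → ℝ} (hx : x ∈ Ω) (j : Fin n) : x j ∈ D.I j :=
  ⟨x, hx, rfl⟩

theorem smooth (D : SepData Ω u f) (j : Fin n) : ContDiffOn ℝ ∞ (f j) (D.I j) := by
  rintro t₀ ⟨x, hx, rfl⟩
  apply ContDiffAt.contDiffWithinAt
  have hι : ContDiff ℝ ∞ (Function.update x j) := contDiff_update ∞ x j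
  have hx' : Function.update x j (x j) = x := Function.update_eq_self j x
  have h1 : ContDiffAt ℝ ∞ (fun t => u (Function.update x j t)) (x j) := by
    apply ContDiffAt.comp (x j) _ hι.contDiffAt
    rw [hx']; exact D.hu.contDiffAt (D.hΩo.mem_nhds hx)
  have h2 : f j =ᶠ[𝓝 (x j)]
      fun t => u (Function.update x j t) - ∑ l ∈ Finset.univ.erase j, f l (x l) := by
    have hN : (Function.update x j) ⁻¹' Ω ∈ 𝓝 (x j) :=
      hι.continuous.continuousAt.preimage_mem_nhds (by rw [hx']; exact D.hΩo.mem_nhds hx)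
    filter_upwards [hN] with t ht
    rw [D.hsep _ ht, sum_update]; ring
  exact (h1.sub contDiffAt_const).congr_of_eventuallyEq h2

theorem pos (D : SepData Ω u f) {x : Fin n → ℝ} (hx : x ∈ Ω) (j : Fin n) :
    0 < deriv (deriv (f j)) (x j) := by
  have h := D.hpd x hx
  rw [hess_sep D.hΩo D.hsep hx, Matrix.posDef_diagonal_iff] at h
  exact h j

theorem pos_I (D : SepData Ω u f) (j : Fin n) : ∀ t ∈ D.I j, 0 < deriv (deriv (f j)) t := by
  rintro t ⟨x, hx, rfl⟩
  exact D.pos hx j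

/-- The domain is a box: this uses that the graph is closed. -/
theorem eq_box (D : SepData Ω u f) : Ω = Set.pi Set.univ D.I := by
  apply Subset.antisymm
  · intro x hx j _
    exact D.mem_I hx j
  · have hB : IsPreconnected (Set.pi Set.univ D.I) :=
      (convex_pi fun j _ => D.convex_I j).isPreconnected
    obtain ⟨x₀, hx₀⟩ := D.hΩn
    apply hB.subset_of_closure_inter_subset D.hΩo ⟨x₀, fun j _ => D.mem_I hx₀ j, hx₀⟩
    rintro x ⟨hxc, hxB⟩
    have hcont : ContinuousAt (fun y : Fin n → ℝ => (y, ∑ j, f j (y j))) x := by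
      apply ContinuousAt.prodMk continuousAt_id
      apply tendsto_finsetSum
      intro j _
      have h1 : ContinuousAt (f j) (x j) :=
        ((D.smooth j).continuousOn).continuousAt ((D.isOpen_I j).mem_nhds (hxB j (mem_univ j)))
      exact ContinuousAt.comp (f := fun y : Fin n → ℝ => y j) h1 (continuous_apply j).continuousAt
    have h2 := hcont.continuousWithinAt.mem_closure_image (s := Ω) hxc
    have h3 : (fun y : Fin n → ℝ => (y, ∑ j, f j (y j))) '' Ω ⊆ graphOn Ω u := by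
      rintro _ ⟨y, hy, rfl⟩
      exact ⟨hy, (D.hsep y hy).symm⟩
    have h4 := closure_minimal h3 D.hcl h2
    exact h4.1

theorem update_mem (D : SepData Ω u f) {x : Fin n → ℝ} (hx : x ∈ Ω) (j : Fin n) {t : ℝ}
    (ht : t ∈ D.I j) : Function.update x j t ∈ Ω := by
  rw [D.eq_box]
  intro l _
  by_cases h : l = j
  · subst h; simpa using ht
  · rw [Function.update_of_ne h]; exact D.mem_I hx l

/-- The exponent `(n+1)/(n+2)`. -/
noncomputable def expo (n : ℕ) : ℝ := ((n : ℝ) + 1) / ((n : ℝ) + 2)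

/-- `g_j = f_j''`. -/
noncomputable def g (_ : SepData Ω u f) (j : Fin n) : ℝ → ℝ := deriv (deriv (f j))

/-- `φ_j = g_j^(-a)`. -/
noncomputable def φ (D : SepData Ω u f) (j : Fin n) : ℝ → ℝ := fun t => (D.g j t) ^ (-(expo n))

/-- `T_j = φ_j'' / (g_j φ_j)`. -/
noncomputable def T (D : SepData Ω u f) (j : Fin n) : ℝ → ℝ :=
  fun t => deriv (deriv (D.φ j)) t / (D.g j t * D.φ j t)

theorem g_pos (D : SepData Ω u f) (j : Fin n) {t : ℝ} (ht : t ∈ D.I j) : 0 < D.g j t :=
  D.pos_I j t ht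

theorem φ_pos (D : SepData Ω u f) (j : Fin n) {t : ℝ} (ht : t ∈ D.I j) : 0 < D.φ j t :=
  Real.rpow_pos_of_pos (D.g_pos j ht) _

theorem sum_T (D : SepData Ω u f) {x : Fin n → ℝ} (hx : x ∈ Ω) : ∑ i, D.T i (x i) = 0 := by
  have h := am_sep D.hΩo D.hsep (fun y hy j => D.pos hy j) hx (D.hAM x hx)
  set P : ℝ := ∏ l, (D.g l (x l) * D.φ l (x l)) with hP
  have hPpos : 0 < P :=
    Finset.prod_pos fun l _ => mul_pos (D.g_pos l (D.mem_I hx l)) (D.φ_pos l (D.mem_I hx l))
  have hterm : ∀ i, D.T i (x i) * P = (∏ l ∈ Finset.univ.erase i, deriv (deriv (f l)) (x l)) *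
      (deriv (deriv (fun t => (deriv (deriv (f i)) t) ^ (-(((n : ℝ) + 1) / ((n : ℝ) + 2))))) (x i) *
        ∏ l ∈ Finset.univ.erase i,
          (deriv (deriv (f l)) (x l)) ^ (-(((n : ℝ) + 1) / ((n : ℝ) + 2)))) := by
    intro i
    rw [hP, ← Finset.mul_prod_erase _ _ (Finset.mem_univ i), Finset.prod_mul_distrib]
    have h1 : D.g i (x i) * D.φ i (x i) ≠ 0 :=
      (mul_pos (D.g_pos i (D.mem_I hx i)) (D.φ_pos i (D.mem_I hx i))).ne'
    show deriv (deriv (D.φ i)) (x i) / (D.g i (x i) * D.φ i (x i)) * _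
      = (∏ l ∈ Finset.univ.erase i, D.g l (x l)) *
        (deriv (deriv (D.φ i)) (x i) * ∏ l ∈ Finset.univ.erase i, D.φ l (x l))
    rw [div_mul_eq_mul_div, div_eq_iff h1]
    ring
  have h2 : (∑ i, D.T i (x i)) * P = 0 := by
    rw [Finset.sum_mul, ← h]
    exact Finset.sum_congr rfl fun i _ => hterm i
  exact (mul_eq_zero.1 h2).resolve_right hPpos.ne'

theorem T_const (D : SepData Ω u f) {x : Fin n → ℝ} (hx : x ∈ Ω) (j : Fin n) {t : ℝ}
    (ht : t ∈ D.I j) : D.T j t = D.T j (x j) := by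
  have h1 := D.sum_T (D.update_mem hx j ht)
  have h2 := D.sum_T hx
  rw [sum_update (fun l => D.T l)] at h1
  rw [← Finset.add_sum_erase _ _ (Finset.mem_univ j)] at h2
  linarith

theorem φ_ode (D : SepData Ω u f) {x : Fin n → ℝ} (hx : x ∈ Ω) (j : Fin n) {t : ℝ}
    (ht : t ∈ D.I j) : deriv (deriv (D.φ j)) t = D.T j (x j) * (D.g j t * D.φ j t) := by
  rw [← D.T_const hx j ht]
  unfold T
  rw [div_mul_cancel₀ _ (mul_pos (D.g_pos j ht) (D.φ_pos j ht)).ne']

theorem g_smooth (D : SepData Ω u f) (j : Fin n) : ContDiffOn ℝ ∞ (D.g j) (D.I j) :=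
  contDiffOn_deriv (D.isOpen_I j) (contDiffOn_deriv (D.isOpen_I j) (D.smooth j))

theorem φ_smooth (D : SepData Ω u f) (j : Fin n) : ContDiffOn ℝ ∞ (D.φ j) (D.I j) :=
  (D.g_smooth j).rpow_const_of_ne fun _ ht => (D.g_pos j ht).ne'

/-- If `φ_j'' ≤ 0` then the `j`-th interval is the whole line: this uses that the graph is
closed. -/
theorem I_eq_univ (D : SepData Ω u f) {x : Fin n → ℝ} (hx : x ∈ Ω) (j : Fin n)
    (hc : D.T j (x j) ≤ 0) : D.I j = Set.univ := by
  by_contra hne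
  obtain ⟨β, hβ⟩ := nonempty_frontier_iff.2 ⟨⟨x j, D.mem_I hx j⟩, hne⟩
  have hβc : β ∈ closure (D.I j) := hβ.1
  have hβn : β ∉ D.I j := by
    have := hβ.2
    rwa [(D.isOpen_I j).interior_eq] at this
  have ht₀ : x j ∈ D.I j := D.mem_I hx j
  have hd : x j - β ≠ 0 := fun h => hβn (by rw [← sub_eq_zero.1 h]; exact ht₀)
  set σ : ℝ := (x j - β) / |x j - β| with hσdef
  set s₁ : ℝ := |x j - β| with hs₁def
  have hs₁ : 0 < s₁ := abs_pos.2 hd
  have hσ : σ * σ = 1 := by
    rw [hσdef]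
    field_simp
    exact (sq_abs _).symm
  have hσs : σ * s₁ = x j - β := by
    rw [hσdef]; field_simp
  have hsub : ∀ s ∈ Ioo 0 s₁, β + σ * s ∈ D.I j := by
    intro s hs
    have h1 := (D.convex_I j).openSegment_closure_interior_subset_interior hβc
      (by rw [(D.isOpen_I j).interior_eq]; exact ht₀)
    rw [(D.isOpen_I j).interior_eq] at h1
    apply h1
    refine ⟨1 - s / s₁, s / s₁, ?_, div_pos hs.1 hs₁, by ring, ?_⟩
    · rw [sub_pos, div_lt_one hs₁]; exact hs.2
    · simp only [smul_eq_mul]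
      have : x j = β + σ * s₁ := by rw [hσs]; ring
      rw [this]
      field_simp
      ring
  have hn : 1 ≤ n := Fin.pos j
  obtain ⟨ha1, ha2⟩ := expo_bounds hn
  obtain ⟨s₂, hs₂, m, M, hmM⟩ := endpoint_bdd ha1 ha2 (D.isOpen_I j) (D.smooth j) (D.pos_I j)
    (fun t ht => by
      have := D.φ_ode hx j ht
      show deriv (deriv (D.φ j)) t ≤ 0
      rw [this]
      exact mul_nonpos_of_nonpos_of_nonneg hc
        (mul_pos (D.g_pos j ht) (D.φ_pos j ht)).le) hσ hs₁ hsub
  -- the sequence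
  set K : ℝ := ∑ l ∈ Finset.univ.erase j, f l (x l) with hK
  set sq : ℕ → ℝ := fun k => s₂ * (1 / ((k : ℝ) + 1)) with hsq
  have hsq_mem : ∀ k, sq k ∈ Ioc 0 s₂ := by
    intro k
    have hk : (0 : ℝ) < (k : ℝ) + 1 := by positivity
    constructor
    · exact mul_pos hs₂.1 (by positivity)
    · have : 1 / ((k : ℝ) + 1) ≤ 1 := by
        rw [div_le_one hk]; linarith [(Nat.cast_nonneg k : (0 : ℝ) ≤ k)]
      calc sq k ≤ s₂ * 1 := mul_le_mul_of_nonneg_left this hs₂.1.le
        _ = s₂ := mul_one _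
  have hsq_tend : Tendsto sq atTop (𝓝 0) := by
    have := (tendsto_one_div_add_atTop_nhds_zero_nat (𝕜 := ℝ)).const_mul s₂
    rw [mul_zero] at this
    exact this
  set y : ℕ → (Fin n → ℝ) := fun k => Function.update x j (β + σ * sq k) with hy
  have hyΩ : ∀ k, y k ∈ Ω := fun k =>
    D.update_mem hx j (hsub _ ⟨(hsq_mem k).1, lt_of_le_of_lt (hsq_mem k).2 hs₂.2⟩)
  have huy : ∀ k, u (y k) = f j (β + σ * sq k) + K := fun k => by
    rw [D.hsep _ (hyΩ k), sum_update]
  have hbd : ∀ k, u (y k) ∈ Icc (m + K) (M + K) := fun k => by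
    rw [huy]
    have := hmM _ (hsq_mem k)
    exact ⟨by linarith [this.1], by linarith [this.2]⟩
  obtain ⟨v, _, ψ, hψ, hv⟩ := tendsto_subseq_of_bounded (Metric.isBounded_Icc _ _) hbd
  have hytend : Tendsto y atTop (𝓝 (Function.update x j β)) := by
    have hc1 : Continuous (fun t : ℝ => Function.update x j t) :=
      continuous_const.update j continuous_id
    have h1 : Tendsto (fun k => β + σ * sq k) atTop (𝓝 (β + σ * 0)) :=
      tendsto_const_nhds.add (hsq_tend.const_mul σ)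
    rw [mul_zero, add_zero] at h1
    exact (hc1.tendsto β).comp h1
  have hlim : Tendsto (fun k => (y (ψ k), u (y (ψ k)))) atTop (𝓝 (Function.update x j β, v)) :=
    (hytend.comp hψ.tendsto_atTop).prodMk_nhds hv
  have hmem := D.hcl.mem_of_tendsto hlim
    (Filter.Eventually.of_forall fun k => (⟨hyΩ (ψ k), rfl⟩ : _ ∈ graphOn Ω u))
  apply hβn
  have := D.mem_I hmem.1 j
  simpa using this

/-- If `φ_j'' ≤ 0` then the constant vanishes and `g_j` is constant. -/
theorem rigid (D : SepData Ω u f) {x : Fin n → ℝ} (hx : x ∈ Ω) (j : Fin n)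
    (hc : D.T j (x j) ≤ 0) : D.T j (x j) = 0 ∧ ∀ t, D.g j t = D.g j 0 := by
  have hI := D.I_eq_univ hx j hc
  have hmem : ∀ t, t ∈ D.I j := fun t => by rw [hI]; exact mem_univ t
  have hφs := D.φ_smooth j
  have hφ's := contDiffOn_deriv (D.isOpen_I j) hφs
  rw [hI] at hφs hφ's
  have h1 : Differentiable ℝ (D.φ j) :=
    fun t => (differentiableOn_of_smooth hφs t (mem_univ t)).differentiableAt univ_mem
  have h2 : Differentiable ℝ (deriv (D.φ j)) :=
    fun t => (differentiableOn_of_smooth hφ's t (mem_univ t)).differentiableAt univ_mem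
  have h3 : ∀ t, deriv (deriv (D.φ j)) t ≤ 0 := fun t => by
    rw [D.φ_ode hx j (hmem t)]
    exact mul_nonpos_of_nonpos_of_nonneg hc
      (mul_pos (D.g_pos j (hmem t)) (D.φ_pos j (hmem t))).le
  have h4 := deriv_eq_zero_of_concave_pos h1 h2 h3 (fun t => D.φ_pos j (hmem t))
  have h5 : deriv (D.φ j) = fun _ => 0 := funext h4
  constructor
  · have h6 := D.φ_ode hx j (hmem 0)
    rw [h5] at h6
    simp only [deriv_const] at h6
    exact (mul_eq_zero.1 h6.symm).resolve_right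
      (mul_pos (D.g_pos j (hmem 0)) (D.φ_pos j (hmem 0))).ne'
  · intro t
    have h7 : D.φ j t = D.φ j 0 := is_const_of_deriv_eq_zero h1 h4 t 0
    have hn : 1 ≤ n := Fin.pos j
    have ha : expo n ≠ 0 := by
      have := (expo_bounds hn).1
      unfold expo
      linarith
    have h8 : ∀ s, D.g j s = (D.φ j s) ^ (-(1 / expo n)) := fun s => by
      unfold φ
      rw [← Real.rpow_mul (D.g_pos j (hmem s)).le]
      have : -expo n * -(1 / expo n) = 1 := by field_simp
      rw [this, Real.rpow_one]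
    rw [h8 t, h8 0, h7]

/-- The main theorem for separable functions. -/
theorem main (D : SepData Ω u f) :
    Ω = Set.univ ∧ ∃ (A : Matrix (Fin n) (Fin n) ℝ) (b : Fin n → ℝ) (c : ℝ), A.PosDef ∧
      ∀ x, u x = 1 / 2 * (x ⬝ᵥ (A *ᵥ x)) + b ⬝ᵥ x + c := by
  obtain ⟨x₀, hx₀⟩ := D.hΩn
  have hnn : ∀ j, 0 ≤ D.T j (x₀ j) := by
    intro j
    by_contra h
    have h' : D.T j (x₀ j) < 0 := not_le.1 h
    have := (D.rigid hx₀ j h'.le).1
    linarith
  have hzero : ∀ j, D.T j (x₀ j) = 0 := fun j =>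
    (Finset.sum_eq_zero_iff_of_nonneg fun j _ => hnn j).1 (D.sum_T hx₀) j (Finset.mem_univ j)
  have hI : ∀ j, D.I j = Set.univ := fun j => D.I_eq_univ hx₀ j (hzero j).le
  have hΩ : Ω = Set.univ := by
    rw [D.eq_box]
    ext x
    simp [hI]
  refine ⟨hΩ, Matrix.diagonal (fun j => D.g j 0), fun j => deriv (f j) 0, ∑ j, f j 0, ?_, ?_⟩
  · apply Matrix.PosDef.diagonal
    intro j
    exact D.g_pos j (by rw [hI]; exact mem_univ _)
  · intro x
    have hx : x ∈ Ω := by rw [hΩ]; exact mem_univ x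
    rw [D.hsep x hx]
    have hq : ∀ j, f j (x j) = D.g j 0 * (x j) ^ 2 / 2 + deriv (f j) 0 * (x j) + f j 0 := by
      intro j
      have hs := D.smooth j
      have hs' := contDiffOn_deriv (D.isOpen_I j) hs
      rw [hI j] at hs hs'
      exact quadratic_of_deriv2_const
        (fun t => (differentiableOn_of_smooth hs t (mem_univ t)).differentiableAt univ_mem)
        (fun t => (differentiableOn_of_smooth hs' t (mem_univ t)).differentiableAt univ_mem)
        (fun t => (D.rigid hx₀ j (hzero j).le).2 t) (x j)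
    simp only [dotProduct, Matrix.mulVec_diagonal]
    rw [Finset.mul_sum, ← Finset.sum_add_distrib, ← Finset.sum_add_distrib]
    refine Finset.sum_congr rfl fun j _ => ?_
    rw [hq j]; ring

end SepData

end Vale.Agent.P252
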